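import Mathlib

/-!
Paper package P6 of the n = 3 proof (helper308, part 2): the abstract (topological and
measure theoretic) parts of 2.2 (the J lemma) and 2.3 (the area lemma).

B is a compact Hausdorff space with an action of a group G by homeomorphisms all of whose
orbits are dense; a chart X at b is a homeomorphism of B minus b onto the plane, the
function f is its first coordinate.
-/

namespace Vale.Agent.P207.H575.T3

open Set Filter Topology MeasureTheory

set_option linter.unusedSectionVars false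

variable {B : Type*} [TopologicalSpace B] [CompactSpace B] [T2Space B]

/-- a punctured chart: a homeomorphism from the complement of a point onto the plane -/
structure PChart (b : B) where
  X : OpenPartialHomeomorph B (ℝ × ℝ)
  src : X.source = {b}ᶜ
  tgt : X.target = univ

namespace PChart

variable {b : B} (P : PChart b)

def Y (p : ℝ × ℝ) : B := P.X.symm p

theorem Y_ne (p : ℝ × ℝ) : P.Y p ≠ b := by
  have h : P.X.symm p ∈ P.X.source := P.X.map_target (by rw [P.tgt]; trivial)
  rw [P.src] at h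
  exact h

theorem X_Y (p : ℝ × ℝ) : P.X (P.Y p) = p :=
  P.X.right_inv (by rw [P.tgt]; trivial)

theorem Y_X {η : B} (h : η ≠ b) : P.Y (P.X η) = η :=
  P.X.left_inv (by rw [P.src]; exact h)

theorem Y_cont : Continuous P.Y := by
  have h := P.X.symm.continuousOn
  rw [P.X.symm_source, P.tgt] at h
  exact continuousOn_univ.mp h

theorem X_cont : ContinuousOn P.X {b}ᶜ := by
  have h := P.X.continuousOn
  rwa [P.src] at h

/-- the function attached to the chart -/
def f (η : B) : ℝ := (P.X η).1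

theorem f_Y (p : ℝ × ℝ) : P.f (P.Y p) = p.1 := by
  unfold f
  rw [P.X_Y]

theorem f_cont : ContinuousOn P.f {b}ᶜ := continuous_fst.comp_continuousOn P.X_cont

/-- the circle J -/
def J : Set B := {η | η = b ∨ P.f η = 0}

/-- points escaping in the chart tend to b -/
theorem tendsto_b : Tendsto P.Y (cocompact (ℝ × ℝ)) (𝓝 b) := by
  intro V hV
  obtain ⟨W, hWV, hWo, hbW⟩ := mem_nhds_iff.mp hV
  have hc : IsCompact (Wᶜ) := hWo.isClosed_compl.isCompact
  have hsub : Wᶜ ⊆ {b}ᶜ := by
    intro η hη h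
    rw [mem_singleton_iff] at h
    rw [h] at hη
    exact hη hbW
  have hK : IsCompact (P.X '' Wᶜ) := hc.image_of_continuousOn (P.X_cont.mono hsub)
  rw [mem_map, mem_cocompact]
  refine ⟨_, hK, ?_⟩
  intro p hp
  apply hWV
  by_contra hcon
  exact hp ⟨P.Y p, hcon, P.X_Y p⟩

theorem J_closed : IsClosed P.J := by
  rw [← isOpen_compl_iff, isOpen_iff_mem_nhds]
  intro η hη
  have h1 : η ≠ b := fun h => hη (Or.inl h)
  have h2 : P.f η ≠ 0 := fun h => hη (Or.inr h)
  have hn : ({b}ᶜ : Set B) ∈ 𝓝 η := isOpen_compl_singleton.mem_nhds h1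
  have hc : ContinuousAt P.f η := P.f_cont.continuousAt hn
  filter_upwards [hn, hc.eventually_ne h2] with ζ hζ1 hζ2
  rintro (h | h)
  · exact hζ1 h
  · exact hζ2 h

theorem J_ne_univ : P.J ≠ univ := by
  intro h
  have h1 : P.Y (1, 0) ∈ P.J := by rw [h]; trivial
  rcases h1 with h1 | h1
  · exact P.Y_ne _ h1
  · rw [P.f_Y] at h1
    norm_num at h1

theorem line_mem (t : ℝ) : P.Y (0, t) ∈ P.J := Or.inr (P.f_Y _)

theorem mem_line {η : B} (h : η ∈ P.J) (hb : η ≠ b) : ∃ t, η = P.Y (0, t) := by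
  rcases h with h | h
  · exact absurd h hb
  · refine ⟨(P.X η).2, ?_⟩
    have : ((0 : ℝ), (P.X η).2) = P.X η := by
      unfold f at h
      rw [← h]
    rw [this, P.Y_X hb]

theorem tend_top : Tendsto (fun t : ℝ => P.Y (0, t)) atTop (𝓝 b) := by
  refine P.tendsto_b.comp ?_
  have h1 : Tendsto (fun t : ℝ => ((0 : ℝ), t)) (cocompact ℝ) (cocompact (ℝ × ℝ)) :=
    (Topology.IsClosedEmbedding.of_continuous_injective_isClosedMap
      (by fun_prop) (fun a b h => by simpa using h) (by
        intro s hs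
        have : (fun t : ℝ => ((0 : ℝ), t)) '' s = {0} ×ˢ s := by
          ext ⟨u, v⟩
          simp only [mem_image, Prod.mk.injEq, mem_prod, mem_singleton_iff]
          constructor
          · rintro ⟨w, hw, h1, h2⟩
            exact ⟨h1.symm, h2 ▸ hw⟩
          · rintro ⟨h1, h2⟩
            exact ⟨v, h2, h1.symm, rfl⟩
        rw [this]
        exact isClosed_singleton.prod hs)).tendsto_cocompact
  exact h1.mono_left atTop_le_cocompact

theorem tend_bot : Tendsto (fun t : ℝ => P.Y (0, t)) atBot (𝓝 b) := by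
  refine P.tendsto_b.comp ?_
  have h1 : Tendsto (fun t : ℝ => ((0 : ℝ), t)) (cocompact ℝ) (cocompact (ℝ × ℝ)) :=
    (Topology.IsClosedEmbedding.of_continuous_injective_isClosedMap
      (by fun_prop) (fun a b h => by simpa using h) (by
        intro s hs
        have : (fun t : ℝ => ((0 : ℝ), t)) '' s = {0} ×ˢ s := by
          ext ⟨u, v⟩
          simp only [mem_image, Prod.mk.injEq, mem_prod, mem_singleton_iff]
          constructor
          · rintro ⟨w, hw, h1, h2⟩
            exact ⟨h1.symm, h2 ▸ hw⟩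
          · rintro ⟨h1, h2⟩
            exact ⟨v, h2, h1.symm, rfl⟩
        rw [this]
        exact isClosed_singleton.prod hs)).tendsto_cocompact
  exact h1.mono_left atBot_le_cocompact

end PChart

/-- a continuous injective function on the line cannot have the same finite limit at both
ends -/
theorem no_loop {u : ℝ → ℝ} (hc : Continuous u) (hi : Function.Injective u) {l : ℝ}
    (h1 : Tendsto u atTop (𝓝 l)) (h2 : Tendsto u atBot (𝓝 l)) : False := by
  rcases hc.strictMono_of_inj hi with h | h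
  · have a1 : u 1 ≤ l := h.monotone.ge_of_tendsto h1 1
    have a2 : l ≤ u 0 := h.monotone.le_of_tendsto h2 0
    have a3 : u 0 < u 1 := h zero_lt_one
    linarith
  · have a1 : l ≤ u 1 := h.antitone.le_of_tendsto h1 1
    have a2 : u 0 ≤ l := h.antitone.ge_of_tendsto h2 0
    have a3 : u 1 < u 0 := h zero_lt_one
    linarith

variable {G : Type*} [Group G] [MulAction G B] [ContinuousConstSMul G B]

/-- J LEMMA (2.2). -/
theorem J_lemma (hmin : ∀ ξ : B, Dense (MulAction.orbit G ξ)) {a b : B} (Pa : PChart a)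
    (Pb : PChart b) : ∃ g : G, ∃ η₁ η₂ : B, η₁ ∈ Pa.J ∧ η₂ ∈ Pa.J ∧ g • η₁ ≠ b ∧
      g • η₂ ≠ b ∧ Pb.f (g • η₁) ≠ Pb.f (g • η₂) := by
  by_contra hcon
  push Not at hcon
  -- then b is in g J for all g
  have key : ∀ g : G, ∃ η ∈ Pa.J, g • η = b := by
    intro g
    by_contra hg
    push Not at hg
    have hline : ∀ t : ℝ, g • Pa.Y (0, t) ≠ b := fun t => hg _ (Pa.line_mem t)
    have ha' : g • a ≠ b := hg _ (Or.inl rfl)
    -- second coordinate along the loop
    let u : ℝ → ℝ := fun t => (Pb.X (g • Pa.Y (0, t))).2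
    have hcb : ContinuousOn (fun η : B => (Pb.X η).2) {b}ᶜ :=
      continuous_snd.comp_continuousOn Pb.X_cont
    have hu : Continuous u := by
      have h1 : Continuous (fun t : ℝ => g • Pa.Y (0, t)) :=
        (Pa.Y_cont.comp (by fun_prop)).const_smul g
      exact hcb.comp_continuous h1 hline
    have hi : Function.Injective u := by
      intro s t hst
      have h1 : Pb.f (g • Pa.Y (0, s)) = Pb.f (g • Pa.Y (0, t)) :=
        hcon g _ _ (Pa.line_mem s) (Pa.line_mem t) (hline s) (hline t)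
      have h2 : Pb.X (g • Pa.Y (0, s)) = Pb.X (g • Pa.Y (0, t)) := Prod.ext h1 hst
      have h3 : g • Pa.Y (0, s) = g • Pa.Y (0, t) := by
        rw [← Pb.Y_X (hline s), h2, Pb.Y_X (hline t)]
      have h4 := smul_left_cancel g h3
      have h5 : ((0 : ℝ), s) = (0, t) := by rw [← Pa.X_Y (0, s), h4, Pa.X_Y]
      simpa using h5
    have hca : ContinuousAt (fun η : B => (Pb.X η).2) (g • a) :=
      hcb.continuousAt (isOpen_compl_singleton.mem_nhds ha')
    have hl1 : Tendsto u atTop (𝓝 (Pb.X (g • a)).2) :=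
      hca.tendsto.comp (Pa.tend_top.const_smul g)
    have hl2 : Tendsto u atBot (𝓝 (Pb.X (g • a)).2) :=
      hca.tendsto.comp (Pa.tend_bot.const_smul g)
    exact no_loop hu hi hl1 hl2
  -- hence the orbit of b is inside J
  have horb : MulAction.orbit G b ⊆ Pa.J := by
    rintro _ ⟨g, rfl⟩
    obtain ⟨η, hη, h⟩ := key g⁻¹
    have : g • b = η := by rw [← h, smul_inv_smul]
    show g • b ∈ Pa.J
    rw [this]
    exact hη
  apply Pa.J_ne_univ
  have h1 : closure (MulAction.orbit G b) ⊆ Pa.J := closure_minimal horb Pa.J_closed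
  rw [(hmin b).closure_eq] at h1
  exact univ_subset_iff.mp h1


/-- an arc of the zero line on which the translated function is nonconstant -/
theorem arc_exists (hmin : ∀ ξ : B, Dense (MulAction.orbit G ξ)) {b : B} (P : PChart b) :
    ∃ g : G, ∃ t₁ t₂ : ℝ, t₁ < t₂ ∧ (∀ t ∈ Icc t₁ t₂, g • P.Y (0, t) ≠ b) ∧
      P.f (g • P.Y (0, t₁)) ≠ P.f (g • P.Y (0, t₂)) := by
  obtain ⟨g, η₁, η₂, h1, h2, h1b, h2b, hne⟩ := J_lemma hmin P P
  refine ⟨g, ?_⟩
  by_contra hcon
  push Not at hcon
  -- the function along the line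
  let u : ℝ → ℝ := fun t => P.f (g • P.Y (0, t))
  have hY : Continuous (fun t : ℝ => g • P.Y (0, t)) :=
    (P.Y_cont.comp (by fun_prop)).const_smul g
  have hcon' : ∀ t₁ t₂ : ℝ, t₁ ≤ t₂ → (∀ t ∈ Icc t₁ t₂, g • P.Y (0, t) ≠ b) → u t₁ = u t₂ := by
    intro t₁ t₂ h12 h
    rcases h12.lt_or_eq with h' | h'
    · exact hcon t₁ t₂ h' h
    · rw [h']
  by_cases hgb : g • b = b
  · -- all points of the line avoid b
    have hav : ∀ t : ℝ, g • P.Y (0, t) ≠ b := by
      intro t ht
      exact P.Y_ne _ (smul_left_cancel g (ht.trans hgb.symm))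
    have hc : ∀ s t : ℝ, u s = u t := by
      intro s t
      rcases le_total s t with h | h
      · exact hcon' s t h fun r _ => hav r
      · exact (hcon' t s h fun r _ => hav r).symm
    have hm : ∀ η ∈ P.J, g • η ≠ b → ∃ t, η = P.Y (0, t) := by
      intro η hη hgη
      apply P.mem_line hη
      rintro rfl
      exact hgη hgb
    obtain ⟨s, rfl⟩ := hm _ h1 h1b
    obtain ⟨t, rfl⟩ := hm _ h2 h2b
    exact hne (hc s t)
  · -- f' is continuous at b, both ends have the same limit
    have hca : ContinuousAt P.f (g • b) :=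
      P.f_cont.continuousAt (isOpen_compl_singleton.mem_nhds hgb)
    have hl1 : Tendsto u atTop (𝓝 (P.f (g • b))) := hca.tendsto.comp (P.tend_top.const_smul g)
    have hl2 : Tendsto u atBot (𝓝 (P.f (g • b))) := hca.tendsto.comp (P.tend_bot.const_smul g)
    -- the values at all good points are the value at b
    have hall : ∀ t : ℝ, g • P.Y (0, t) ≠ b → u t = P.f (g • b) := by
      intro t ht
      -- the exceptional parameter is unique
      by_cases hup : ∀ s, t ≤ s → g • P.Y (0, s) ≠ b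
      · -- constant on [t, infinity)
        have hc : ∀ s, t ≤ s → u s = u t := fun s hs =>
          (hcon' t s hs fun r hr => hup r hr.1).symm
        have : Tendsto u atTop (𝓝 (u t)) := by
          refine tendsto_const_nhds.congr' ?_
          filter_upwards [eventually_ge_atTop t] with s hs
          exact (hc s hs).symm
        exact tendsto_nhds_unique this hl1
      · push Not at hup
        obtain ⟨s₀, hs₀, hbad⟩ := hup
        have hdown : ∀ s, s ≤ t → g • P.Y (0, s) ≠ b := by
          intro s hs hb'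
          have h3 := smul_left_cancel g (hb'.trans hbad.symm)
          have h4 : ((0 : ℝ), s) = (0, s₀) := by rw [← P.X_Y (0, s), h3, P.X_Y]
          have h5 : s = s₀ := by simpa using h4
          have h6 : t = s₀ := le_antisymm hs₀ (h5 ▸ hs)
          exact ht (h6 ▸ hbad)
        have hc : ∀ s, s ≤ t → u s = u t := fun s hs =>
          hcon' s t hs fun r hr => hdown r hr.2
        have : Tendsto u atBot (𝓝 (u t)) := by
          refine tendsto_const_nhds.congr' ?_
          filter_upwards [eventually_le_atBot t] with s hs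
          exact (hc s hs).symm
        exact tendsto_nhds_unique this hl2
    have hm : ∀ η ∈ P.J, g • η ≠ b → P.f (g • η) = P.f (g • b) := by
      intro η hη hgη
      by_cases hb' : η = b
      · rw [hb']
      · obtain ⟨t, rfl⟩ := P.mem_line hη hb'
        exact hall t hgη
    exact hne ((hm _ h1 h1b).trans (hm _ h2 h2b).symm)

/-- POSITIVE AREA (first half of 2.3): some compact set K avoiding b and the pole of f'
has image of positive area under (f, f'). -/
theorem area_pos (hmin : ∀ ξ : B, Dense (MulAction.orbit G ξ)) {b : B} (P : PChart b) :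
    ∃ g : G, ∃ K : Set B, IsCompact K ∧ b ∉ K ∧ (∀ η ∈ K, g • η ≠ b) ∧
      0 < volume ((fun η => (P.f η, P.f (g • η))) '' K) := by
  obtain ⟨g, t₁, t₂, ht, hav, hne⟩ := arc_exists hmin P
  refine ⟨g, ?_⟩
  have hYg : Continuous (fun p : ℝ × ℝ => g • P.Y p) := P.Y_cont.const_smul g
  -- the open set of good parameters
  have hO : IsOpen {p : ℝ × ℝ | g • P.Y p ≠ b} := isOpen_compl_singleton.preimage hYg
  let φ : ℝ × ℝ → ℝ := fun p => P.f (g • P.Y p)
  have hφc : ContinuousOn φ {p : ℝ × ℝ | g • P.Y p ≠ b} :=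
    P.f_cont.comp hYg.continuousOn fun p hp => hp
  obtain ⟨U, V, hU, hV, h0U, hIV, hUV⟩ := generalized_tube_lemma (isCompact_singleton (x := (0 : ℝ)))
    (isCompact_Icc (a := t₁) (b := t₂)) hO (by
      rintro ⟨s, t⟩ ⟨hs, ht'⟩
      rw [mem_singleton_iff] at hs
      simp only at hs ht'
      subst hs
      exact hav t ht')
  have h0U' : (0 : ℝ) ∈ U := h0U rfl
  -- continuity at the two end points in s
  have hend : ∀ t ∈ Icc t₁ t₂, ContinuousAt (fun s : ℝ => φ (s, t)) 0 := by
    intro t ht'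
    have h1 : ContinuousAt φ (0, t) := hφc.continuousAt (hO.mem_nhds (hav t ht'))
    exact h1.comp (f := fun s : ℝ => (s, t)) (by fun_prop)
  -- choose levels
  have hmain : ∃ u v : ℝ, u < v ∧ ∀ᶠ s in 𝓝 (0 : ℝ), s ∈ U ∧ Icc u v ⊆
      (fun t => φ (s, t)) '' Icc t₁ t₂ := by
    have hcont : ∀ s ∈ U, ContinuousOn (fun t => φ (s, t)) (Icc t₁ t₂) := by
      intro s hs
      refine hφc.comp (by fun_prop) fun t ht' => hUV ⟨hs, hIV ht'⟩
    have e1 := hend t₁ ⟨le_rfl, ht.le⟩
    have e2 := hend t₂ ⟨ht.le, le_rfl⟩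
    rcases lt_or_gt_of_ne (show φ (0, t₁) ≠ φ (0, t₂) from hne) with h | h
    · refine ⟨(2 * φ (0, t₁) + φ (0, t₂)) / 3, (φ (0, t₁) + 2 * φ (0, t₂)) / 3, by linarith, ?_⟩
      filter_upwards [hU.mem_nhds h0U', e1.eventually_lt_const
        (show φ (0, t₁) < (2 * φ (0, t₁) + φ (0, t₂)) / 3 by linarith),
        e2.eventually_const_lt (show (φ (0, t₁) + 2 * φ (0, t₂)) / 3 < φ (0, t₂) by linarith)]
        with s hs hs1 hs2
      refine ⟨hs, ?_⟩
      exact (Icc_subset_Icc hs1.le hs2.le).trans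
        (intermediate_value_Icc ht.le (hcont s hs))
    · refine ⟨(2 * φ (0, t₂) + φ (0, t₁)) / 3, (φ (0, t₂) + 2 * φ (0, t₁)) / 3, by linarith, ?_⟩
      filter_upwards [hU.mem_nhds h0U', e2.eventually_lt_const
        (show φ (0, t₂) < (2 * φ (0, t₂) + φ (0, t₁)) / 3 by linarith),
        e1.eventually_const_lt (show (φ (0, t₂) + 2 * φ (0, t₁)) / 3 < φ (0, t₁) by linarith)]
        with s hs hs1 hs2
      refine ⟨hs, ?_⟩
      exact (Icc_subset_Icc hs1.le hs2.le).trans
        (intermediate_value_Icc' ht.le (hcont s hs))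
  obtain ⟨u, v, huv, hev⟩ := hmain
  obtain ⟨δ, hδ, hball⟩ := Metric.eventually_nhds_iff.mp hev
  let δ' := δ / 2
  have hδ' : 0 < δ' := by positivity
  have hgood : ∀ s ∈ Icc (-δ') δ', s ∈ U ∧ Icc u v ⊆ (fun t => φ (s, t)) '' Icc t₁ t₂ := by
    intro s hs
    apply hball
    rw [Real.dist_eq, sub_zero]
    have : |s| ≤ δ' := abs_le.mpr hs
    have : δ' < δ := by show δ / 2 < δ; linarith
    linarith
  refine ⟨P.Y '' (Icc (-δ') δ' ×ˢ Icc t₁ t₂),
    (isCompact_Icc.prod isCompact_Icc).image P.Y_cont, ?_, ?_, ?_⟩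
  · rintro ⟨p, _, hp⟩
    exact P.Y_ne p hp
  · rintro _ ⟨⟨s, t⟩, ⟨hs, ht'⟩, rfl⟩
    exact hUV ⟨(hgood s hs).1, hIV ht'⟩
  · have hsub : Icc (-δ') δ' ×ˢ Icc u v ⊆
        (fun η => (P.f η, P.f (g • η))) '' (P.Y '' (Icc (-δ') δ' ×ˢ Icc t₁ t₂)) := by
      rintro ⟨s, w⟩ ⟨hs, hw⟩
      obtain ⟨t, ht', hφt⟩ := (hgood s hs).2 hw
      refine ⟨P.Y (s, t), ⟨(s, t), ⟨hs, ht'⟩, rfl⟩, ?_⟩
      simp only
      rw [P.f_Y]
      exact Prod.ext rfl hφt
    refine lt_of_lt_of_le ?_ (measure_mono hsub)
    rw [Measure.volume_eq_prod, Measure.prod_prod, Real.volume_Icc, Real.volume_Icc]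
    have h1 : 0 < δ' - -δ' := by linarith
    have h2 : 0 < v - u := by linarith
    exact ENNReal.mul_pos (ENNReal.ofReal_pos.mpr h1).ne' (ENNReal.ofReal_pos.mpr h2).ne'

end Vale.Agent.P207.H575.T3
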