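import Mathlib

/-!
Paper package P6 of the n = 3 proof (helper308, part 2): null area half of 2.3.
-/

namespace Vale.Agent.P207.H575.T3

open Set Filter Topology MeasureTheory

section counts

variable {B : Type*}

/-- the count: a set covered by at most C e^{hT} pieces each with image of area at most
eps e^{-hT} has image of area zero -/
theorem null_of_cover {K : Set B} {Ψ : B → ℝ × ℝ} {h C : ℝ} (hC : 0 < C)
    (H : ∀ ε : ℝ, 0 < ε → ∃ T : ℝ, ∃ (ι : Type) (I : Finset ι) (S : ι → Set B),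
      (I.card : ℝ) ≤ C * Real.exp (h * T) ∧ K ⊆ (⋃ i ∈ I, S i) ∧
      ∀ i ∈ I, volume (Ψ '' (S i ∩ K)) ≤ ENNReal.ofReal (ε * Real.exp (-(h * T)))) :
    volume (Ψ '' K) = 0 := by
  have key : ∀ ε : ℝ, 0 < ε → volume (Ψ '' K) ≤ ENNReal.ofReal (C * ε) := by
    intro ε hε
    obtain ⟨T, ι, I, S, hcard, hcov, hvol⟩ := H ε hε
    have hsub : Ψ '' K ⊆ ⋃ i ∈ I, Ψ '' (S i ∩ K) := by
      rintro _ ⟨x, hx, rfl⟩
      obtain ⟨i, hi, hxi⟩ := mem_iUnion₂.mp (hcov hx)
      exact mem_iUnion₂.mpr ⟨i, hi, x, ⟨hxi, hx⟩, rfl⟩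
    calc volume (Ψ '' K) ≤ volume (⋃ i ∈ I, Ψ '' (S i ∩ K)) := measure_mono hsub
      _ ≤ ∑ i ∈ I, volume (Ψ '' (S i ∩ K)) := measure_biUnion_finset_le _ _
      _ ≤ ∑ _i ∈ I, ENNReal.ofReal (ε * Real.exp (-(h * T))) := Finset.sum_le_sum hvol
      _ = ENNReal.ofReal ((I.card : ℝ) * (ε * Real.exp (-(h * T)))) := by
          rw [Finset.sum_const, nsmul_eq_mul,
            ENNReal.ofReal_mul (p := (I.card : ℝ)) (by positivity), ENNReal.ofReal_natCast]
      _ ≤ ENNReal.ofReal (C * ε) := by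
          apply ENNReal.ofReal_le_ofReal
          calc (I.card : ℝ) * (ε * Real.exp (-(h * T)))
              ≤ (C * Real.exp (h * T)) * (ε * Real.exp (-(h * T))) := by gcongr
            _ = C * ε * (Real.exp (h * T) * Real.exp (-(h * T))) := by ring
            _ = C * ε := by rw [← Real.exp_add]; simp
  by_contra hne
  obtain ⟨r, hr0, hr⟩ : ∃ r : ℝ, 0 < r ∧ ENNReal.ofReal r < volume (Ψ '' K) := by
    obtain ⟨q, hq1, hq2⟩ := ENNReal.lt_iff_exists_real_btwn.mp (pos_iff_ne_zero.mpr hne)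
    exact ⟨q, ENNReal.ofReal_pos.mp hq2.1, hq2.2⟩
  have h1 := key (r / C) (by positivity)
  rw [mul_div_cancel₀ _ hC.ne'] at h1
  exact absurd h1 (not_le.mpr hr)

/-- area of a set of small oscillation -/
theorem vol_osc {A : Set (ℝ × ℝ)} {r : ℝ} (hr : 0 ≤ r)
    (h : ∀ x ∈ A, ∀ y ∈ A, |x.1 - y.1| ≤ r ∧ |x.2 - y.2| ≤ r) :
    volume A ≤ ENNReal.ofReal (4 * r * r) := by
  rcases A.eq_empty_or_nonempty with rfl | ⟨p, hp⟩
  · simp
  · have hsub : A ⊆ Icc (p.1 - r) (p.1 + r) ×ˢ Icc (p.2 - r) (p.2 + r) := by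
      intro x hx
      obtain ⟨h1, h2⟩ := h x hx p hp
      rw [abs_le] at h1 h2
      constructor <;> constructor <;> linarith [h1.1, h1.2, h2.1, h2.2]
    refine (measure_mono hsub).trans ?_
    rw [Measure.volume_eq_prod, Measure.prod_prod, Real.volume_Icc, Real.volume_Icc,
      ← ENNReal.ofReal_mul (by linarith)]
    apply ENNReal.ofReal_le_ofReal
    nlinarith

/-- NULL AREA, case chi > h/2 of 2.3 -/
theorem null_gt {K : Set B} {Ψ : B → ℝ × ℝ} {h χ C : ℝ} (hC : 0 < C) (hχ : h < 2 * χ)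
    (H : ∀ T : ℕ, ∃ (ι : Type) (I : Finset ι) (S : ι → Set B),
      (I.card : ℝ) ≤ C * Real.exp (h * T) ∧ K ⊆ (⋃ i ∈ I, S i) ∧
      ∀ i ∈ I, ∀ x ∈ S i ∩ K, ∀ y ∈ S i ∩ K, |(Ψ x).1 - (Ψ y).1| ≤ C * Real.exp (-(χ * T)) ∧
        |(Ψ x).2 - (Ψ y).2| ≤ C * Real.exp (-(χ * T))) :
    volume (Ψ '' K) = 0 := by
  apply null_of_cover (h := h) (C := C) hC
  intro ε hε
  have hlim : Tendsto (fun T : ℕ => 4 * C * C * Real.exp (-((2 * χ - h) * (T : ℝ)))) atTop
      (𝓝 (4 * C * C * 0)) := by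
    refine Tendsto.const_mul _ ?_
    refine Real.tendsto_exp_neg_atTop_nhds_zero.comp ?_
    exact Tendsto.const_mul_atTop (by linarith) tendsto_natCast_atTop_atTop
  rw [mul_zero] at hlim
  obtain ⟨T, hT⟩ := ((tendsto_order.mp hlim).2 ε hε).exists
  obtain ⟨ι, I, S, hcard, hcov, hosc⟩ := H T
  refine ⟨T, ι, I, S, hcard, hcov, fun i hi => ?_⟩
  have h1 : volume (Ψ '' (S i ∩ K)) ≤
      ENNReal.ofReal (4 * (C * Real.exp (-(χ * T))) * (C * Real.exp (-(χ * T)))) := by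
    apply vol_osc (by positivity)
    rintro _ ⟨x, hx, rfl⟩ _ ⟨y, hy, rfl⟩
    exact hosc i hi x hx y hy
  refine h1.trans (ENNReal.ofReal_le_ofReal ?_)
  have e : 4 * (C * Real.exp (-(χ * T))) * (C * Real.exp (-(χ * T)))
      = (4 * C * C * Real.exp (-((2 * χ - h) * (T : ℝ)))) * Real.exp (-(h * T)) := by
    have : Real.exp (-((2 * χ - h) * (T : ℝ))) * Real.exp (-(h * T))
        = Real.exp (-(χ * T)) * Real.exp (-(χ * T)) := by
      rw [← Real.exp_add, ← Real.exp_add]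
      congr 1
      ring
    rw [mul_assoc (4 * C * C), this]
    ring
  rw [e]
  gcongr

end counts

section limits

variable {E : Type*} [NormedAddCommGroup E] [NormedSpace ℝ E]

/-- the image of a compact set under a map of rank at most one is null -/
theorem rank_one_null (L : E ≃L[ℝ] ℝ × ℝ) {D : Set E} {F F' : E → ℝ}
    {dF dF' : E → E →L[ℝ] ℝ} (hF : ∀ x ∈ D, HasFDerivWithinAt F (dF x) D x)
    (hF' : ∀ x ∈ D, HasFDerivWithinAt F' (dF' x) D x)
    (hdep : ∀ x ∈ D, ∃ a b : ℝ, (a ≠ 0 ∨ b ≠ 0) ∧ a • dF x + b • dF' x = 0) :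
    volume ((fun x => (F x, F' x)) '' D) = 0 := by
  let D' : Set (ℝ × ℝ) := L '' D
  let Φ : ℝ × ℝ → ℝ × ℝ := fun p => (F (L.symm p), F' (L.symm p))
  have himg : (fun x => (F x, F' x)) '' D = Φ '' D' := by
    rw [image_image]
    simp [Φ]
  rw [himg]
  have hmaps : MapsTo (L.symm : ℝ × ℝ → E) D' D := by
    rintro _ ⟨x, hx, rfl⟩
    simpa using hx
  let Φ' : ℝ × ℝ → (ℝ × ℝ →L[ℝ] ℝ × ℝ) := fun p =>
    ((dF (L.symm p)).comp (L.symm : ℝ × ℝ →L[ℝ] E)).prod
      ((dF' (L.symm p)).comp (L.symm : ℝ × ℝ →L[ℝ] E))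
  refine addHaar_image_eq_zero_of_det_fderivWithin_eq_zero volume (f' := Φ') ?_ ?_
  · intro p hp
    have hL : HasFDerivWithinAt (L.symm : ℝ × ℝ → E) (L.symm : ℝ × ℝ →L[ℝ] E) D' p :=
      (L.symm : ℝ × ℝ →L[ℝ] E).hasFDerivWithinAt
    exact ((hF _ (hmaps hp)).comp p hL hmaps).prodMk ((hF' _ (hmaps hp)).comp p hL hmaps)
  · intro p hp
    obtain ⟨a, b, hab, h0⟩ := hdep _ (hmaps hp)
    by_contra hdet
    -- an invertible map is surjective
    have hu : IsUnit ((Φ' p : ℝ × ℝ →L[ℝ] ℝ × ℝ) : (ℝ × ℝ) →ₗ[ℝ] (ℝ × ℝ)).det :=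
      isUnit_iff_ne_zero.mpr hdet
    have hsurj : Function.Surjective (Φ' p) := by
      have := ((LinearEquiv.ofIsUnitDet (f := ((Φ' p : ℝ × ℝ →L[ℝ] ℝ × ℝ) :
        (ℝ × ℝ) →ₗ[ℝ] (ℝ × ℝ))) (v := Module.finBasis ℝ (ℝ × ℝ))
        (v' := Module.finBasis ℝ (ℝ × ℝ)) (by
          rw [LinearMap.det_toMatrix]; exact hu))).surjective
      exact this
    obtain ⟨w, hw⟩ := hsurj (a, b)
    have h1 : dF (L.symm p) (L.symm w) = a := congrArg Prod.fst hw
    have h2 : dF' (L.symm p) (L.symm w) = b := congrArg Prod.snd hw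
    have h3 : (a • dF (L.symm p) + b • dF' (L.symm p)) (L.symm w) = 0 := by
      rw [h0]; rfl
    have h4 : a * dF (L.symm p) (L.symm w) + b * dF' (L.symm p) (L.symm w) = 0 := h3
    rw [h1, h2] at h4
    rcases hab with h | h
    · have := mul_self_pos.mpr h
      linarith [mul_self_nonneg b]
    · have := mul_self_pos.mpr h
      linarith [mul_self_nonneg a]

/-- LIMIT OF AREAS (2.3, borderline case): if a sequence of pairs of functions on a compact
set converges uniformly to a pair of C^1 functions with proportional differentials, the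
areas of the images tend to zero -/
theorem area_limit (L : E ≃L[ℝ] ℝ × ℝ) {D : Set E} (hD : IsCompact D) {F F' : E → ℝ}
    {dF dF' : E → E →L[ℝ] ℝ} (hF : ∀ x ∈ D, HasFDerivWithinAt F (dF x) D x)
    (hF' : ∀ x ∈ D, HasFDerivWithinAt F' (dF' x) D x)
    (hdep : ∀ x ∈ D, ∃ a b : ℝ, (a ≠ 0 ∨ b ≠ 0) ∧ a • dF x + b • dF' x = 0)
    {Fn Fn' : ℕ → E → ℝ} (h1 : TendstoUniformlyOn Fn F atTop D)
    (h2 : TendstoUniformlyOn Fn' F' atTop D) :
    Tendsto (fun n => volume ((fun x => (Fn n x, Fn' n x)) '' D)) atTop (𝓝 0) := by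
  have hnull := rank_one_null L hF hF' hdep
  have hc : IsCompact ((fun x => (F x, F' x)) '' D) :=
    hD.image_of_continuousOn (fun x hx =>
      ((hF x hx).continuousWithinAt).prodMk ((hF' x hx).continuousWithinAt))
  have ht := tendsto_measure_cthickening_of_isCompact (μ := (volume : Measure (ℝ × ℝ))) hc
  rw [hnull] at ht
  rw [ENNReal.tendsto_nhds_zero] at ht ⊢
  intro ε hε
  have h3 := ht ε hε
  obtain ⟨δ, hδ, hball⟩ := Metric.eventually_nhds_iff.mp h3
  have h4 := hball (y := δ / 2) (by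
    rw [Real.dist_eq, sub_zero, abs_of_pos (by positivity)]
    linarith)
  have e1 := (Metric.tendstoUniformlyOn_iff.mp h1) (δ / 2) (by positivity)
  have e2 := (Metric.tendstoUniformlyOn_iff.mp h2) (δ / 2) (by positivity)
  filter_upwards [e1, e2] with n hn1 hn2
  refine (measure_mono ?_).trans h4
  rintro _ ⟨x, hx, rfl⟩
  refine Metric.mem_cthickening_of_dist_le _ (F x, F' x) _ _ ⟨x, hx, rfl⟩ ?_
  rw [Prod.dist_eq]
  refine max_le ?_ ?_
  · have := hn1 x hx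
    rw [dist_comm] at this
    exact this.le
  · have := hn2 x hx
    rw [dist_comm] at this
    exact this.le

end limits

end Vale.Agent.P207.H575.T3
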