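import Vale.Agent.P207.H575.T3.Area
import Vale.Agent.P207.H575.T3.Null

/-!
Paper package P6 of the n = 3 proof (helper308, part 2): the abstract area lemma 2.3.
-/

namespace Vale.Agent.P207.H575.T3

open Set Filter Topology MeasureTheory
open scoped Pointwise

set_option linter.unusedSectionVars false

variable {B : Type*} [TopologicalSpace B] [CompactSpace B] [T2Space B]
variable {G : Type*} [Group G] [MulAction G B] [ContinuousConstSMul G B]

/-- the contradiction of 2.3 -/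
theorem area_false (hmin : ∀ ξ : B, Dense (MulAction.orbit G ξ)) {b : B} (P : PChart b)
    (hnull : ∀ g : G, ∀ K : Set B, IsCompact K → b ∉ K → (∀ η ∈ K, g • η ≠ b) →
      volume ((fun η => (P.f η, P.f (g • η))) '' K) = 0) : False := by
  obtain ⟨g, K, hK, hb, hg, hpos⟩ := area_pos hmin P
  exact absurd (hnull g K hK hb hg) hpos.ne'

/-- uniform smallness from sequences -/
theorem eventually_small {X : Type*} {a : ℕ → X → ENNReal} {K : Set X}
    (H : ∀ (T : ℕ → ℕ) (x : ℕ → X), Tendsto T atTop atTop → (∀ n, x n ∈ K) →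
      ∃ φ : ℕ → ℕ, StrictMono φ ∧ Tendsto (fun n => a (T (φ n)) (x (φ n))) atTop (𝓝 0)) :
    ∀ ε : ENNReal, 0 < ε → ∃ T₀ : ℕ, ∀ T, T₀ ≤ T → ∀ x ∈ K, a T x ≤ ε := by
  intro ε hε
  by_contra hcon
  push Not at hcon
  choose T hT x hx hlt using hcon
  have hTt : Tendsto T atTop atTop := tendsto_atTop_mono hT tendsto_id
  obtain ⟨φ, _, hlim⟩ := H T x hTt hx
  rw [ENNReal.tendsto_nhds_zero] at hlim
  obtain ⟨n, hn⟩ := (hlim ε hε).exists
  exact absurd hn (not_le.mpr (hlt (φ n)))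

/-- NULL AREA, borderline case of 2.3: e^{hT} times the area of the image of each piece
tends to zero uniformly -/
theorem null_eq {K : Set B} {Ψ : B → ℝ × ℝ} {h C : ℝ} (hC : 0 < C) {X : Type}
    {Q : Set X} {S : ℕ → X → Set B}
    (hcov : ∀ T : ℕ, ∃ I : Finset X, (I.card : ℝ) ≤ C * Real.exp (h * T) ∧
      K ⊆ (⋃ i ∈ I, S T i) ∧ ∀ i ∈ I, i ∈ Q)
    (hlim : ∀ (T : ℕ → ℕ) (x : ℕ → X), Tendsto T atTop atTop → (∀ n, x n ∈ Q) →
      ∃ φ : ℕ → ℕ, StrictMono φ ∧ Tendsto (fun n => ENNReal.ofReal (Real.exp (h * T (φ n))) *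
        volume (Ψ '' (S (T (φ n)) (x (φ n)) ∩ K))) atTop (𝓝 0)) :
    volume (Ψ '' K) = 0 := by
  apply null_of_cover (h := h) (C := C) hC
  intro ε hε
  obtain ⟨T₀, hT₀⟩ := eventually_small
    (a := fun T x => ENNReal.ofReal (Real.exp (h * T)) * volume (Ψ '' (S T x ∩ K)))
    (K := Q) hlim (ENNReal.ofReal ε) (ENNReal.ofReal_pos.mpr hε)
  obtain ⟨I, hcard, hcv, hQ⟩ := hcov T₀
  refine ⟨T₀, X, I, S T₀, hcard, hcv, fun i hi => ?_⟩
  have h1 : ENNReal.ofReal (Real.exp (h * T₀)) * volume (Ψ '' (S T₀ i ∩ K)) ≤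
      ENNReal.ofReal ε := hT₀ T₀ le_rfl i (hQ i hi)
  have h2 : ENNReal.ofReal (Real.exp (-(h * T₀))) * ENNReal.ofReal (Real.exp (h * T₀)) = 1 := by
    rw [← ENNReal.ofReal_mul (Real.exp_pos _).le, ← Real.exp_add]
    simp
  calc volume (Ψ '' (S T₀ i ∩ K))
      = ENNReal.ofReal (Real.exp (-(h * T₀))) * (ENNReal.ofReal (Real.exp (h * T₀)) *
          volume (Ψ '' (S T₀ i ∩ K))) := by rw [← mul_assoc, h2, one_mul]
    _ ≤ ENNReal.ofReal (Real.exp (-(h * T₀))) * ENNReal.ofReal ε := by gcongr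
    _ = ENNReal.ofReal (ε * Real.exp (-(h * T₀))) := by
        rw [← ENNReal.ofReal_mul (Real.exp_pos _).le, mul_comm]

/-- scaling of areas by an affine map of ratio r -/
theorem vol_scale {A : Set (ℝ × ℝ)} (c : ℝ × ℝ) {r : ℝ} (hr : 0 < r) :
    ENNReal.ofReal (r * r) * volume A = volume ((fun p => r • (p - c)) '' A) := by
  have e : (fun p : ℝ × ℝ => r • (p - c)) '' A = r • ((fun p => p + (-c)) '' A) := by
    rw [← image_smul, image_image]
    simp [sub_eq_add_neg]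
  rw [e, Measure.addHaar_smul_of_nonneg volume hr.le, image_add_right, measure_preimage_add_right]
  congr 2
  simp
  ring

end Vale.Agent.P207.H575.T3
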