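import Vale.Agent.P207.H575.T3.Lim
import Vale.Agent.P207.H575.T3.Pack
import Vale.Agent.P207.H575.T3.AreaF

/-!
Line N3 of P207, package P6: the area lemma (2.3) over the Leaf interface.
-/

namespace Vale.Agent.P207.N3

open Set Filter Topology Metric MeasureTheory
open scoped ContDiff Nat
open Vale.Agent.P207.H575.T3 (PChart area_false null_gt null_eq vol_scale area_limit)

set_option linter.unusedSectionVars false

variable {Γ X B : Type} [Group Γ] [MetricSpace X] [ProperSpace X] [MulAction Γ X]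
  [IsIsometricSMul Γ X] [TopologicalSpace B] [CompactSpace B] [T2Space B] [MulAction Γ B]
  [ContinuousConstSMul Γ B]

namespace Leaf

variable (L : Leaf Γ X B)

/-- the frames of the leaf of xi over g K, compared with the frames x over K -/
noncomputable def cmp (ξ : B) (g : Γ) (x : X) : X := g • L.hol (g⁻¹ • ξ) x

theorem cmp_ne {ξ : B} {K : Set B} {g : Γ} (hg : ∀ η ∈ K, g • η ≠ ξ) {x : X}
    (hx : x ∈ L.lev0 ξ K) : g⁻¹ • ξ ≠ L.ep x := by
  intro h
  exact hg _ hx.2.1 (by rw [← h, smul_inv_smul])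

theorem cmp_em {ξ : B} {K : Set B} {g : Γ} (hg : ∀ η ∈ K, g • η ≠ ξ) {x : X}
    (hx : x ∈ L.lev0 ξ K) : L.em (L.cmp ξ g x) = ξ := by
  unfold cmp
  rw [L.em_smul, L.hol_em _ _ (L.cmp_ne hg hx), smul_inv_smul]

theorem cmp_compact {ξ : B} {K : Set B} (hK : IsCompact K) (hξ : ξ ∉ K) {g : Γ}
    (hg : ∀ η ∈ K, g • η ≠ ξ) : IsCompact (L.cmp ξ g '' L.lev0 ξ K) := by
  refine (L.lev0_compact hK hξ).image_of_continuousOn ?_
  have h1 : ContinuousOn (fun x : X => L.hol (g⁻¹ • ξ) x) (L.lev0 ξ K) :=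
    L.hol_cont.comp (f := fun x : X => (g⁻¹ • ξ, x)) (by fun_prop) fun x hx => L.cmp_ne hg hx
  exact h1.const_smul g

/-- the T-ball of the leaf of xi, seen from the translated leaf -/
theorem cmp_close {ξ : B} {K : Set B} (hK : IsCompact K) (hξ : ξ ∉ K) {g : Γ}
    (hg : ∀ η ∈ K, g • η ≠ ξ) {ε : ℝ} (hε : 0 < ε) : ∃ T₀ ≥ (0 : ℝ), ∀ x ∈ L.lev0 ξ K,
    ∀ T ≥ T₀, dist (g • L.φ T x) (L.φ T (L.cmp ξ g x)) < ε := by
  have hQ : IsCompact (({g⁻¹ • ξ} : Set B) ×ˢ L.lev0 ξ K) :=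
    isCompact_singleton.prod (L.lev0_compact hK hξ)
  obtain ⟨C, hC⟩ := L.hol_asym _ hQ (by
    rintro ⟨b, x⟩ ⟨hb, hx⟩
    rw [mem_singleton_iff] at hb
    simp only at hb hx ⊢
    rw [hb]
    exact L.cmp_ne hg hx)
  have hlim : Tendsto (fun t : ℝ => C * Real.exp (-L.χ * t)) atTop (𝓝 0) := by
    have h1 : Tendsto (fun t : ℝ => Real.exp (-(L.χ * t))) atTop (𝓝 0) :=
      Real.tendsto_exp_neg_atTop_nhds_zero.comp (Tendsto.const_mul_atTop L.χ_pos tendsto_id)
    have h2 := h1.const_mul C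
    rw [mul_zero] at h2
    refine h2.congr fun t => ?_
    rw [neg_mul]
  obtain ⟨T₀, hT₀⟩ := eventually_atTop.mp ((tendsto_order.mp hlim).2 ε hε)
  refine ⟨max T₀ 0, le_max_right _ _, fun x hx T hT => ?_⟩
  have h1 := hC (g⁻¹ • ξ, x) ⟨rfl, hx⟩ T ((le_max_right _ _).trans hT)
  have h2 := hT₀ T ((le_max_left _ _).trans hT)
  unfold cmp
  rw [L.φ_smul, dist_smul]
  exact lt_of_le_of_lt h1 h2

/-- the position of a point of the T-ball in the translated leaf -/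
theorem cmp_pos {ξ : B} {g : Γ} {x : X} {T δ ε : ℝ}
    (hnc : ∀ x y : X, dist x y < δ → ∀ u ∈ closedBall (0 : E2) 2, L.e x u ∈ L.e y '' ball 0 3 ∧
      dist (L.inv y (L.e x u)) u < ε) (hd : dist (g • L.φ T x) (L.φ T (L.cmp ξ g x)) < δ)
    {u : E2} (hu : u ∈ closedBall (0 : E2) 2) :
    g • L.e (L.φ T x) u = L.e (L.φ T (L.cmp ξ g x))
        (L.inv (L.φ T (L.cmp ξ g x)) (g • L.e (L.φ T x) u)) ∧
      dist (L.inv (L.φ T (L.cmp ξ g x)) (g • L.e (L.φ T x) u)) u < ε := by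
  have h1 := hnc _ _ hd u hu
  have hu3 : u ∈ closedBall (0 : E2) 3 := closedBall_subset_closedBall (by norm_num) hu
  rw [L.e_smul _ _ _ hu3] at h1
  exact ⟨(L.e_inv (image_mono ball_subset_closedBall h1.1)).symm, h1.2⟩

end Leaf

namespace Leaf

variable [MeasurableSpace B] [BorelSpace B] {L : Leaf Γ X B} (A : Area L)

include A in
/-- the case chi > h/2 -/
theorem area_gt {ξ : B} {f : B → ℝ} {χ : ℝ} (hU : L.UALL ξ f χ) (hχ : A.h < 2 * χ)
    {K : Set B} (hK : IsCompact K) (hξ : ξ ∉ K) {g : Γ} (hg : ∀ η ∈ K, g • η ≠ ξ) :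
    volume ((fun η => (f η, f (g • η))) '' K) = 0 := by
  obtain ⟨δ, hδ, hnc⟩ := L.near_charts (ε := 1) one_pos
  obtain ⟨T₀, hT₀, hcl⟩ := L.cmp_close hK hξ hg hδ
  obtain ⟨C₁, hC₁⟩ := hU _ (L.lev0_compact hK hξ) (fun x hx => hx.1)
  obtain ⟨C₂, hC₂⟩ := hU _ (L.cmp_compact hK hξ hg) (by
    rintro _ ⟨x, hx, rfl⟩
    exact L.cmp_em hg hx)
  obtain ⟨C₃, hC₃, hpack⟩ := L.packing A hK hξ
  set T₁ := T₀ + L.t1 with hT₁
  have ht1 := L.t1_pos
  have hh := A.h_pos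
  have hχ0 : 0 < χ := by linarith
  set C : ℝ := C₃ * Real.exp (A.h * T₁) + 2 * |C₁| + 2 * |C₂| * Real.exp (χ * L.t1) with hCdef
  have hCpos : 0 < C := by positivity
  refine null_gt (h := A.h) (χ := χ) (C := C) hCpos hχ fun T => ?_
  obtain ⟨I, hcard, hI, hcov⟩ := hpack (T + T₁) (by positivity)
  have hTT : (0 : ℝ) ≤ T := Nat.cast_nonneg T
  refine ⟨X, I, fun x => L.e (L.φ (T + T₁) x) '' closedBall 0 1, ?_, hcov, ?_⟩
  · refine hcard.trans ?_
    rw [mul_add, Real.exp_add, hCdef]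
    have e1 := Real.exp_pos (A.h * T)
    have e2 := Real.exp_pos (A.h * T₁)
    have e3 : 0 ≤ 2 * |C₁| + 2 * |C₂| * Real.exp (χ * L.t1) := by positivity
    nlinarith
  · rintro x hx _ ⟨⟨u, hu, rfl⟩, hη⟩ _ ⟨⟨u', hu', rfl⟩, hη'⟩
    have hxK := hI x hx
    -- first coordinate
    have b1 : ∀ u ∈ closedBall (0 : E2) 1,
        |f (L.e (L.φ (T + T₁) x) u) - f (L.ep x)| ≤ |C₁| * Real.exp (-(χ * T)) := by
      intro u hu
      have h1 := hC₁ x hxK (T + T₁) (by positivity) u hu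
      rw [Real.norm_eq_abs] at h1
      refine h1.trans ?_
      have h2 : Real.exp (-(χ * (T + T₁))) ≤ Real.exp (-(χ * T)) := by
        apply Real.exp_le_exp.mpr
        have : 0 ≤ T₁ := by positivity
        nlinarith
      calc C₁ * Real.exp (-(χ * (T + T₁))) ≤ |C₁| * Real.exp (-(χ * (T + T₁))) := by
            gcongr
            exact le_abs_self _
        _ ≤ |C₁| * Real.exp (-(χ * T)) := by gcongr
    -- second coordinate
    have b2 : ∀ u ∈ closedBall (0 : E2) 1,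
        |f (g • L.e (L.φ (T + T₁) x) u) - f (L.ep (L.cmp ξ g x))| ≤
          |C₂| * Real.exp (χ * L.t1) * Real.exp (-(χ * T)) := by
      intro u hu
      obtain ⟨h1, h2⟩ := L.cmp_pos hnc (hcl x hxK (T + T₁) (by rw [hT₁]; linarith))
        (closedBall_subset_closedBall (by norm_num) hu)
      have hu3 : L.inv (L.φ (T + T₁) (L.cmp ξ g x)) (g • L.e (L.φ (T + T₁) x) u) ∈
          ball (0 : E2) 3 := by
        rw [mem_ball, dist_zero_right]
        rw [mem_closedBall, dist_zero_right] at hu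
        calc ‖L.inv (L.φ (T + T₁) (L.cmp ξ g x)) (g • L.e (L.φ (T + T₁) x) u)‖
            ≤ ‖L.inv (L.φ (T + T₁) (L.cmp ξ g x)) (g • L.e (L.φ (T + T₁) x) u) - u‖ + ‖u‖ := by
              have := norm_add_le
                (L.inv (L.φ (T + T₁) (L.cmp ξ g x)) (g • L.e (L.φ (T + T₁) x) u) - u) u
              rwa [sub_add_cancel] at this
          _ < 3 := by
              rw [dist_eq_norm] at h2
              linarith
      -- one step back
      have e1 : L.φ (T + T₁) (L.cmp ξ g x) = L.φ L.t1 (L.φ (T + T₀) (L.cmp ξ g x)) := by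
        rw [← L.φ_add]
        congr 1
        rw [hT₁]; ring
      have h3 : g • L.e (L.φ (T + T₁) x) u = L.e (L.φ (T + T₀) (L.cmp ξ g x))
          (L.τ (L.φ L.t1 (L.φ (T + T₀) (L.cmp ξ g x))) (L.φ (T + T₀) (L.cmp ξ g x))
            (L.inv (L.φ (T + T₁) (L.cmp ξ g x)) (g • L.e (L.φ (T + T₁) x) u))) := by
        rw [L.e_tau (by rw [L.dm_engulf _ le_rfl]; exact hu3), ← e1]
        exact h1
      rw [h3]
      have h4 := hC₂ (L.cmp ξ g x) ⟨x, hxK, rfl⟩ (T + T₀) (by positivity) _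
        (ball_subset_closedBall (L.tau_engulf (L.φ (T + T₀) (L.cmp ξ g x)) le_rfl hu3))
      rw [Real.norm_eq_abs] at h4
      refine h4.trans ?_
      have h5 : Real.exp (-(χ * (T + T₀))) ≤ Real.exp (-(χ * T)) := by
        apply Real.exp_le_exp.mpr
        nlinarith
      have h6 : 1 ≤ Real.exp (χ * L.t1) := Real.one_le_exp (by positivity)
      calc C₂ * Real.exp (-(χ * (T + T₀))) ≤ |C₂| * Real.exp (-(χ * (T + T₀))) := by
            gcongr
            exact le_abs_self _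
        _ ≤ |C₂| * 1 * Real.exp (-(χ * T)) := by rw [mul_one]; gcongr
        _ ≤ |C₂| * Real.exp (χ * L.t1) * Real.exp (-(χ * T)) := by gcongr
    have hexp := Real.exp_pos (-(χ * T))
    have hc3 : 0 ≤ C₃ * Real.exp (A.h * T₁) := by positivity
    constructor
    · have h1 := b1 u hu
      have h2 := b1 u' hu'
      simp only
      calc |f (L.e (L.φ (T + T₁) x) u) - f (L.e (L.φ (T + T₁) x) u')|
          = |(f (L.e (L.φ (T + T₁) x) u) - f (L.ep x)) -
              (f (L.e (L.φ (T + T₁) x) u') - f (L.ep x))| := by congr 1; ring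
        _ ≤ |f (L.e (L.φ (T + T₁) x) u) - f (L.ep x)| +
              |f (L.e (L.φ (T + T₁) x) u') - f (L.ep x)| := abs_sub _ _
        _ ≤ 2 * |C₁| * Real.exp (-(χ * T)) := by linarith
        _ ≤ C * Real.exp (-(χ * T)) := by
            gcongr
            rw [hCdef]
            have : 0 ≤ 2 * |C₂| * Real.exp (χ * L.t1) := by positivity
            linarith
    · have h1 := b2 u hu
      have h2 := b2 u' hu'
      simp only
      calc |f (g • L.e (L.φ (T + T₁) x) u) - f (g • L.e (L.φ (T + T₁) x) u')|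
          = |(f (g • L.e (L.φ (T + T₁) x) u) - f (L.ep (L.cmp ξ g x))) -
              (f (g • L.e (L.φ (T + T₁) x) u') - f (L.ep (L.cmp ξ g x)))| := by congr 1; ring
        _ ≤ |f (g • L.e (L.φ (T + T₁) x) u) - f (L.ep (L.cmp ξ g x))| +
              |f (g • L.e (L.φ (T + T₁) x) u') - f (L.ep (L.cmp ξ g x))| := abs_sub _ _
        _ ≤ 2 * |C₂| * Real.exp (χ * L.t1) * Real.exp (-(χ * T)) := by linarith
        _ ≤ C * Real.exp (-(χ * T)) := by
            gcongr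
            rw [hCdef]
            have : 0 ≤ 2 * |C₁| := by positivity
            linarith

/-- the plane as a product -/
noncomputable def E2prod : E2 ≃L[ℝ] ℝ × ℝ :=
  (EuclideanSpace.equiv (Fin 2) ℝ).trans (ContinuousLinearEquiv.finTwoArrow ℝ ℝ)

include A in
/-- the borderline case chi = h/2 -/
theorem area_eq {ξ : B} {f : B → ℝ} {χ : ℝ} (hf : L.SmoothOn ξ f) (hU : L.UALL ξ f χ)
    (hχ : A.h = 2 * χ) (hW : L.WW ξ f χ)
    {K : Set B} (hK : IsCompact K) (hξ : ξ ∉ K) {g : Γ} (hg : ∀ η ∈ K, g • η ≠ ξ) :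
    volume ((fun η => (f η, f (g • η))) '' K) = 0 := by
  obtain ⟨C₃, hC₃, hpack⟩ := L.packing A hK hξ
  refine null_eq (h := A.h) (C := C₃) hC₃ (X := X) (Q := L.lev0 ξ K)
    (S := fun T x => L.e (L.φ T x) '' closedBall 0 1) (fun T => ?_) ?_
  · obtain ⟨I, hcard, hI, hcov⟩ := hpack T (Nat.cast_nonneg T)
    exact ⟨I, hcard, hcov, hI⟩
  intro T x hT hx
  have hTR : Tendsto (fun n => (T n : ℝ)) atTop atTop :=
    tendsto_natCast_atTop_atTop.comp hT
  obtain ⟨γ, w, ψ₁, hψ₁, hw⟩ := L.exists_limit (fun n => L.φ (T n) (x n))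
  -- first limit
  obtain ⟨ψ₂, hψ₂, G, hG, hGlim, hGL⟩ := L.exists_isLim hf hU (L.lev0_compact hK hξ)
    (fun x hx => hx.1) (x := fun n => x (ψ₁ n)) (fun n => hx _) (T := fun n => (T (ψ₁ n) : ℝ))
    (hTR.comp hψ₁.tendsto_atTop) (g := fun n => γ (ψ₁ n)) hw
  -- the compared frames converge to the same frame
  have hcl : ∀ ε : ℝ, 0 < ε → ∀ᶠ n in atTop,
      dist (g • L.φ (T n) (x n)) (L.φ (T n) (L.cmp ξ g (x n))) < ε := by
    intro ε hε
    obtain ⟨T₀, _, h⟩ := L.cmp_close hK hξ hg hε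
    filter_upwards [hTR.eventually_ge_atTop T₀] with n hn
    exact h (x n) (hx n) (T n) hn
  have hw' : Tendsto (fun n => (γ (ψ₁ (ψ₂ n)) * g⁻¹) • L.φ (T (ψ₁ (ψ₂ n)))
      (L.cmp ξ g (x (ψ₁ (ψ₂ n))))) atTop (𝓝 w) := by
    have h1 : Tendsto (fun n => γ (ψ₁ (ψ₂ n)) • L.φ (T (ψ₁ (ψ₂ n))) (x (ψ₁ (ψ₂ n))))
        atTop (𝓝 w) := hw.comp hψ₂.tendsto_atTop
    rw [Metric.tendsto_nhds] at h1 ⊢
    intro ε hε
    filter_upwards [h1 (ε / 2) (by positivity), (hψ₁.comp hψ₂).tendsto_atTop.eventually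
      (hcl (ε / 2) (by positivity))] with n h2 h3
    have h4 : dist ((γ (ψ₁ (ψ₂ n)) * g⁻¹) • L.φ (T (ψ₁ (ψ₂ n))) (L.cmp ξ g (x (ψ₁ (ψ₂ n)))))
        (γ (ψ₁ (ψ₂ n)) • L.φ (T (ψ₁ (ψ₂ n))) (x (ψ₁ (ψ₂ n)))) < ε / 2 := by
      rw [mul_smul, dist_smul, dist_comm, ← dist_smul g, smul_inv_smul]
      exact h3
    calc _ ≤ _ + _ := dist_triangle _ (γ (ψ₁ (ψ₂ n)) • L.φ (T (ψ₁ (ψ₂ n))) (x (ψ₁ (ψ₂ n)))) _
      _ < ε / 2 + ε / 2 := add_lt_add h4 h2
      _ = ε := by ring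
  -- second limit
  obtain ⟨ψ₃, hψ₃, G', hG', hGlim', hGL'⟩ := L.exists_isLim hf hU (L.cmp_compact hK hξ hg)
    (by rintro _ ⟨y, hy, rfl⟩; exact L.cmp_em hg hy)
    (x := fun n => L.cmp ξ g (x (ψ₁ (ψ₂ n)))) (fun n => ⟨_, hx _, rfl⟩)
    (T := fun n => (T (ψ₁ (ψ₂ n)) : ℝ)) (hTR.comp (hψ₁.comp hψ₂).tendsto_atTop)
    (g := fun n => γ (ψ₁ (ψ₂ n)) * g⁻¹) hw'
  let ψ : ℕ → ℕ := fun n => ψ₁ (ψ₂ (ψ₃ n))
  have hψ : StrictMono ψ := hψ₁.comp (hψ₂.comp hψ₃)
  refine ⟨ψ, hψ, ?_⟩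
  -- positions in the second disc
  let pos : ℕ → E2 → E2 := fun n u => L.inv (L.φ (T (ψ n)) (L.cmp ξ g (x (ψ n))))
    (g • L.e (L.φ (T (ψ n)) (x (ψ n))) u)
  have hpos : ∀ ε : ℝ, 0 < ε → ∀ᶠ n in atTop, ∀ u ∈ closedBall (0 : E2) 2,
      g • L.e (L.φ (T (ψ n)) (x (ψ n))) u = L.e (L.φ (T (ψ n)) (L.cmp ξ g (x (ψ n)))) (pos n u) ∧
      dist (pos n u) u < ε := by
    intro ε hε
    obtain ⟨δ, hδ, hnc⟩ := L.near_charts hε
    filter_upwards [hψ.tendsto_atTop.eventually (hcl δ hδ)] with n hn u hu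
    exact L.cmp_pos hnc hn hu
  let F : ℕ → E2 → ℝ := fun n u => Real.exp (χ * T (ψ n)) •
    (f (L.e (L.φ (T (ψ n)) (x (ψ n))) u) - f (L.ep (x (ψ n))))
  let F' : ℕ → E2 → ℝ := fun n u => Real.exp (χ * T (ψ n)) •
    (f (L.e (L.φ (T (ψ n)) (L.cmp ξ g (x (ψ n)))) u) - f (L.ep (L.cmp ξ g (x (ψ n)))))
  have hFG : TendstoUniformlyOn F G atTop (closedBall 0 1) :=
    (H828.tendstoUniformlyOn_sub (H828.tendstoUniformlyOn_of_zero (hGlim 0)) hψ₃).mono
      (closedBall_subset_ball (by norm_num))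
  have hFG' : TendstoUniformlyOn F' G' atTop (ball 0 3) :=
    H828.tendstoUniformlyOn_of_zero (hGlim' 0)
  have hFG'' : TendstoUniformlyOn (fun n u => F' n (pos n u)) G' atTop (closedBall 0 1) := by
    have huc : UniformContinuousOn G' (closedBall (0 : E2) 2) :=
      (isCompact_closedBall (0 : E2) 2).uniformContinuousOn_of_continuous
        (hG'.continuousOn.mono (closedBall_subset_ball (by norm_num)))
    rw [Metric.tendstoUniformlyOn_iff]
    intro ε hε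
    rw [Metric.uniformContinuousOn_iff] at huc
    obtain ⟨δ, hδ, huc⟩ := huc (ε / 2) (by positivity)
    rw [Metric.tendstoUniformlyOn_iff] at hFG'
    filter_upwards [hpos (min δ 1) (by positivity), hFG' (ε / 2) (by positivity)] with n h1 h2 u hu
    have hu2 : u ∈ closedBall (0 : E2) 2 := closedBall_subset_closedBall (by norm_num) hu
    obtain ⟨_, h3⟩ := h1 u hu2
    have hp2 : pos n u ∈ closedBall (0 : E2) 2 := by
      rw [mem_closedBall, dist_zero_right] at hu ⊢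
      have h4 := lt_of_lt_of_le h3 (min_le_right _ _)
      rw [dist_eq_norm] at h4
      have := norm_add_le (pos n u - u) u
      rw [sub_add_cancel] at this
      linarith
    have h5 := huc u hu2 (pos n u) hp2 (by rw [dist_comm]; exact lt_of_lt_of_le h3 (min_le_left _ _))
    have h6 := h2 (pos n u) (closedBall_subset_ball (by norm_num) hp2)
    calc dist (G' u) (F' n (pos n u)) ≤ dist (G' u) (G' (pos n u)) +
          dist (G' (pos n u)) (F' n (pos n u)) := dist_triangle _ _ _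
      _ < ε / 2 + ε / 2 := add_lt_add h5 h6
      _ = ε := by ring
  have hlim := area_limit E2prod (isCompact_closedBall (0 : E2) 1) (F := G) (F' := G')
    (dF := fderiv ℝ G) (dF' := fderiv ℝ G')
    (fun u hu => (((hG.contDiffAt (isOpen_ball.mem_nhds
      (closedBall_subset_ball (by norm_num) hu))).differentiableAt (by simp)).hasFDerivAt).hasFDerivWithinAt)
    (fun u hu => (((hG'.contDiffAt (isOpen_ball.mem_nhds
      (closedBall_subset_ball (by norm_num) hu))).differentiableAt (by simp)).hasFDerivAt).hasFDerivWithinAt)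
    (fun u hu => hW w G G' hGL hGL' u (closedBall_subset_ball (by norm_num) hu)) hFG hFG''
  -- comparison of areas
  refine tendsto_of_tendsto_of_tendsto_of_le_of_le' tendsto_const_nhds hlim
    (Eventually.of_forall fun n => zero_le) ?_
  filter_upwards [hpos 1 one_pos] with n hn
  have e1 : Real.exp (A.h * (T (ψ n) : ℕ)) = Real.exp (χ * T (ψ n)) * Real.exp (χ * T (ψ n)) := by
    rw [← Real.exp_add, hχ]
    congr 1
    ring
  rw [e1, vol_scale (f (L.ep (x (ψ n))), f (L.ep (L.cmp ξ g (x (ψ n))))) (Real.exp_pos _)]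
  apply measure_mono
  rintro _ ⟨_, ⟨η, ⟨⟨u, hu, rfl⟩, _⟩, rfl⟩, rfl⟩
  refine ⟨u, hu, ?_⟩
  obtain ⟨h1, _⟩ := hn u (closedBall_subset_closedBall (by norm_num) hu)
  simp only [F, F', smul_eq_mul]
  rw [← h1]
  rfl

include A in
/-- THE AREA LEMMA (2.3) -/
theorem area_lemma {ξ : B} (P : PChart ξ) {χ : ℝ} (hf : L.SmoothOn ξ P.f)
    (hU : L.UALL ξ P.f χ) (hχ : A.h < 2 * χ ∨ (A.h = 2 * χ ∧ L.WW ξ P.f χ)) : False := by
  refine area_false (G := Γ) (fun η => L.dense_orbit η) P fun g K hK hb hg => ?_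
  rcases hχ with h | ⟨h, hW⟩
  · exact area_gt A hU h hK hb hg
  · exact area_eq A hf hU h hW hK hb hg

end Leaf

end Vale.Agent.P207.N3
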