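import Vale.Agent.P207.H575.T3.Seen

/-!
Line N3 of P207, package P6: the density argument of 2.1. A C^1 limit of rescaled functions has
vanishing differential at a dense set of points if the homoclinic bound beats the rescaling.
-/

namespace Vale.Agent.P207.N3

open Set Filter Topology Metric MeasureTheory
open scoped ContDiff Nat

set_option linter.unusedSectionVars false

variable {Γ X B : Type} [Group Γ] [MetricSpace X] [ProperSpace X] [MulAction Γ X]
  [IsIsometricSMul Γ X] [TopologicalSpace B] [CompactSpace B] [T2Space B] [MulAction Γ B]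
  [ContinuousConstSMul Γ B]

namespace Leaf

variable (L : Leaf Γ X B)

/-- charts are open maps on the open disc -/
theorem isOpen_image (x : X) {S : Set E2} (hS : IsOpen S) (hsub : S ⊆ ball 0 3) :
    IsOpen (L.e x '' S) := by
  have h1 : L.e x '' S = (L.e x '' ball 0 3) ∩ (L.e x '' (closedBall 0 3 \ S))ᶜ := by
    ext b
    constructor
    · rintro ⟨u, hu, rfl⟩
      refine ⟨⟨u, hsub hu, rfl⟩, ?_⟩
      rintro ⟨v, hv, hvu⟩
      have := L.e_inj x hv.1 (ball_subset_closedBall (hsub hu)) hvu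
      exact hv.2 (this ▸ hu)
    · rintro ⟨⟨u, hu, rfl⟩, h2⟩
      by_contra hcon
      exact h2 ⟨u, ⟨ball_subset_closedBall hu, fun h => hcon ⟨u, h, rfl⟩⟩, rfl⟩
  rw [h1]
  have h2 : IsCompact (closedBall (0 : E2) 3 \ S) := (isCompact_closedBall 0 3).diff hS
  have h3 : IsCompact (L.e x '' (closedBall 0 3 \ S)) :=
    h2.image_of_continuousOn ((L.e_cont_x x).mono sdiff_subset)
  exact (L.isOpen_img3 x).inter h3.isClosed.isOpen_compl

theorem tau_smul (g : Γ) {x y : X} {u : E2} (hu : u ∈ L.dm x y) :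
    L.τ (g • x) (g • y) u = L.τ x y u := by
  rw [L.tau_eq, L.tau_eq, L.e_smul g x u (ball_subset_closedBall hu.1),
    L.inv_smul g (image_mono ball_subset_closedBall hu.2)]

theorem fderiv_tau_smul (g : Γ) {x y : X} {u : E2} (hu : u ∈ L.dm x y) :
    fderiv ℝ (L.τ (g • x) (g • y)) u = fderiv ℝ (L.τ x y) u := by
  apply Filter.EventuallyEq.fderiv_eq
  filter_upwards [(L.isOpen_dm x y).mem_nhds hu] with v hv
  exact L.tau_smul g hv

variable {V : Type} [NormedAddCommGroup V] [NormedSpace ℝ V]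

/-- change of chart for the differential of a function on a leaf, at a point which is the centre
of the second chart -/
theorem fderiv_change {ξ : B} {f : B → V} (hf : L.SmoothOn ξ f) {x y : X} (hx : L.em x = ξ)
    (hy : L.em y = ξ) {u : E2} (hu : u ∈ ball (0 : E2) 3) (hxy : L.e x u = L.ep y) :
    u ∈ L.dm x y ∧ fderiv ℝ (fun v => f (L.e x v)) u =
      (fderiv ℝ (fun v => f (L.e y v)) 0).comp (fderiv ℝ (L.τ x y) u) := by
  have h0 : L.e y 0 = L.e x u := by rw [L.e_zero, hxy]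
  have hdm : u ∈ L.dm x y := ⟨hu, 0, by simp, h0⟩
  refine ⟨hdm, ?_⟩
  have hτ0 : L.τ x y u = 0 := by rw [L.tau_eq, ← h0, L.inv_e (by simp)]
  have h1 : DifferentiableAt ℝ (L.τ x y) u :=
    ((L.tau_smooth x y (by rw [hx, hy])).contDiffAt ((L.isOpen_dm x y).mem_nhds hdm)).differentiableAt
      (by simp)
  have h2 : DifferentiableAt ℝ (fun v => f (L.e y v)) (L.τ x y u) := by
    rw [hτ0]
    exact ((hf y hy).contDiffAt (isOpen_ball.mem_nhds (by simp))).differentiableAt (by simp)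
  have h3 : (fun v => f (L.e x v)) =ᶠ[𝓝 u] (fun v => f (L.e y v)) ∘ (L.τ x y) := by
    filter_upwards [(L.isOpen_dm x y).mem_nhds hdm] with v hv
    exact congrArg f (L.e_tau hv).symm
  rw [h3.fderiv_eq, fderiv_comp u h2 h1, hτ0]

/-- the bound of the differential at one homoclinic point -/
theorem core_bound {ξ η₀ : B} {f : B → V} {χ C : ℝ} (hf : L.SmoothOn ξ f) {p z : X} {g k : Γ}
    {c : ℝ} {a : V} {un : E2} {Q : Set X}
    (hC : ∀ y ∈ Q, ∀ k : Γ, L.em (k • y) = ξ → k • η₀ ≠ η₀ →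
      ‖fderiv ℝ (fun u => f (L.e (k • y) u)) 0‖ ≤ C * Real.exp (-(χ * L.lv (k • y))))
    (hz : k⁻¹ • z ∈ Q) (hp : L.em p = ξ) (hc0 : 0 ≤ c)
    (hzem : L.em z = L.em (g • p)) (hzep : L.ep z = k • η₀) (hzlv : L.lv z = L.lv (g • p))
    (hun : un ∈ ball (0 : E2) 3) (hune : L.e (g • p) un = k • η₀) (hgk : g • η₀ ≠ k • η₀) {D : ℝ}
    (hD : ‖fderiv ℝ (L.τ (g • p) z) un‖ ≤ D) :
    ‖fderiv ℝ (fun u => c • (f (L.e p u) - a)) un‖ ≤
        (|C| * D) * (c * Real.exp (-(χ * L.lv p))) := by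
  obtain ⟨q, hq⟩ : ∃ q, q = g⁻¹ • z := ⟨_, rfl⟩
  have hgq : g • q = z := by rw [hq, smul_inv_smul]
  have hqem : L.em q = ξ := by
    rw [hq, L.em_smul, hzem, L.em_smul, inv_smul_smul, hp]
  have hepq : L.e p un = L.ep q := by
    have e1 := L.e_smul g p un (ball_subset_closedBall hun)
    rw [hune] at e1
    rw [hq, L.ep_smul, hzep, e1, inv_smul_smul]
  obtain ⟨hdm, hder⟩ := L.fderiv_change hf hp hqem hun hepq
  have hsm : DifferentiableAt ℝ (fun v => f (L.e p v)) un :=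
    ((hf p hp).contDiffAt (isOpen_ball.mem_nhds hun)).differentiableAt (by simp)
  have e2 : fderiv ℝ (fun u => c • (f (L.e p u) - a)) un =
      c • fderiv ℝ (fun v => f (L.e p v)) un := by
    have h7 : HasFDerivAt (fun u => c • (f (L.e p u) - a))
        (c • fderiv ℝ (fun v => f (L.e p v)) un) un :=
      (hsm.hasFDerivAt.sub_const a).const_smul c
    exact h7.fderiv
  have hH1 := hC (k⁻¹ • z) hz (g⁻¹ * k) (by
    rw [mul_smul, smul_inv_smul, ← hq]; exact hqem) (by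
    intro h
    apply hgk
    rw [mul_smul] at h
    have := congrArg (fun b => g • b) h
    simp only [smul_inv_smul] at this
    exact this.symm)
  rw [mul_smul, smul_inv_smul, ← hq] at hH1
  have hlv : L.lv q = L.lv p := by
    have h8 := L.lv_smul g q p (by rw [hqem, hp])
    rw [hgq, hzlv] at h8
    linarith
  rw [hlv] at hH1
  have hτeq : fderiv ℝ (L.τ p q) un = fderiv ℝ (L.τ (g • p) z) un := by
    rw [← L.fderiv_tau_smul g hdm, hgq]
  rw [e2, hder, norm_smul, Real.norm_of_nonneg hc0]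
  have hexp := (Real.exp_pos (-(χ * L.lv p))).le
  have hDn0 : 0 ≤ D := (norm_nonneg _).trans hD
  calc c * ‖(fderiv ℝ (fun v => f (L.e q v)) 0).comp (fderiv ℝ (L.τ p q) un)‖
      ≤ c * (‖fderiv ℝ (fun v => f (L.e q v)) 0‖ * ‖fderiv ℝ (L.τ p q) un‖) := by
        gcongr
        exact ContinuousLinearMap.opNorm_comp_le _ _
    _ ≤ c * ((|C| * Real.exp (-(χ * L.lv p))) * D) := by
        rw [hτeq]
        gcongr
        exact hH1.trans (by gcongr; exact le_abs_self C)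
    _ = (|C| * D) * (c * Real.exp (-(χ * L.lv p))) := by ring

/-- homoclinic points which are not the exceptional point are dense in a disc -/
theorem exists_homoclinic (w : X) (η₀ : B) (g : ℕ → Γ) (U : Ultrafilter ℕ) {S : Set E2}
    (hSo : IsOpen S) (hSb : S ⊆ ball 0 3) {u₁ : E2} (hu₁S : u₁ ∈ S) :
    ∃ u ∈ S, ∃ k : Γ, k • η₀ = L.e w u ∧ ∀ᶠ n in (U : Filter ℕ), g n • η₀ ≠ k • η₀ := by
  -- the exceptional point
  let bad : Set B := {b | ∀ᶠ n in (U : Filter ℕ), g n • η₀ = b}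
  have hbad : bad.Subsingleton := by
    intro b hb b' hb'
    obtain ⟨n, h1, h2⟩ := (hb.and hb').exists
    exact h1.symm.trans h2
  have hbadc : IsClosed bad := hbad.isClosed
  -- the good open set
  have hS'o : IsOpen (S ∩ (ball 0 3 ∩ L.e w ⁻¹' badᶜ)) :=
    hSo.inter (((L.e_cont_x w).mono ball_subset_closedBall).isOpen_inter_preimage isOpen_ball
      hbadc.isOpen_compl)
  set S' := S ∩ (ball 0 3 ∩ L.e w ⁻¹' badᶜ) with hS'
  have hS'sub : S' ⊆ ball 0 3 := fun u hu => hu.2.1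
  have hS'ne : S'.Nonempty := by
    obtain ⟨r, hr, hball⟩ := Metric.isOpen_iff.mp hSo u₁ hu₁S
    let v : E2 := EuclideanSpace.single 0 1
    have hv : ‖v‖ = 1 := by simp [v]
    let u₂ := u₁ + (r / 2) • v
    have hu₂ : u₂ ∈ S := by
      apply hball
      rw [mem_ball, dist_eq_norm]
      simp only [u₂, add_sub_cancel_left, norm_smul, hv, mul_one, Real.norm_eq_abs]
      rw [abs_of_pos (by positivity)]
      linarith
    have hne : u₁ ≠ u₂ := by
      intro h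
      have : (r / 2) • v = 0 := by
        have := congrArg (fun z => z - u₁) h
        simpa [u₂] using this.symm
      rw [smul_eq_zero] at this
      rcases this with h | h
      · linarith
      · rw [h, norm_zero] at hv
        norm_num at hv
    by_cases h1 : L.e w u₁ ∈ bad
    · refine ⟨u₂, hu₂, hSb hu₂, fun h2 => hne ?_⟩
      exact L.e_inj w (ball_subset_closedBall (hSb hu₁S)) (ball_subset_closedBall (hSb hu₂))
        (hbad h1 h2)
    · exact ⟨u₁, hu₁S, hSb hu₁S, h1⟩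
  -- a homoclinic point
  obtain ⟨_, ⟨k, rfl⟩, u, hu, hk⟩ := (L.dense_orbit η₀).exists_mem_open
    (L.isOpen_image w hS'o hS'sub) (hS'ne.image _)
  refine ⟨u, hu.1, k, hk.symm, ?_⟩
  have h1 : ¬ ∀ᶠ n in (U : Filter ℕ), g n • η₀ = k • η₀ := by
    intro h
    exact hu.2.2 (show L.e w u ∈ bad by rw [hk]; exact h)
  exact Ultrafilter.eventually_not.mpr h1

/-- auxiliary frames with the same past and level and a prescribed future -/
theorem aux_frames {w : X} {p : ℕ → X} (hw : Tendsto p atTop (𝓝 w)) {η : B}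
    (hne : L.em w ≠ η) : ∃ (Z : Set X) (z : ℕ → X), IsCompact Z ∧ (∀ y ∈ Z, L.ep y = η) ∧
      ∀ᶠ n in atTop, z n ∈ Z ∧ L.em (z n) = L.em (p n) ∧ L.ep (z n) = η ∧
        L.lv (z n) = L.lv (p n) := by
  obtain ⟨K₂, hK₂n, hK₂c, hK₂⟩ := exists_mem_nhds_isClosed_subset
    (isOpen_compl_singleton.mem_nhds (show L.em w ∈ ({η}ᶜ : Set B) from hne))
  let Z : Set X := {z | (L.em z, L.ep z) ∈ K₂ ×ˢ {η} ∧ |L.lv z| ≤ |L.lv w| + 1}
  have hZc : IsCompact Z := L.hopf_proper (K₂ ×ˢ {η}) (hK₂c.isCompact.prod isCompact_singleton)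
    (by
      rintro ⟨b, b'⟩ ⟨hb, hb'⟩
      rw [mem_singleton_iff] at hb'
      simp only at hb hb' ⊢
      rintro rfl
      exact hK₂ hb (by rw [hb']; rfl)) _
  have hex : ∀ n, ∃ z, L.em (p n) ≠ η → (L.em z = L.em (p n) ∧
      L.ep z = η ∧ L.lv z = L.lv (p n)) := by
    intro n
    by_cases h : L.em (p n) ≠ η
    · obtain ⟨z, hz⟩ := L.exists_frame _ _ h (L.lv (p n))
      exact ⟨z, fun _ => hz⟩
    · exact ⟨w, fun h' => absurd h' h⟩
  choose z hz using hex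
  refine ⟨Z, z, hZc, fun y hy => hy.1.2, ?_⟩
  have ev1 : ∀ᶠ n in atTop, L.em (p n) ∈ K₂ :=
    ((L.em_cont.tendsto w).comp hw).eventually hK₂n
  have ev2 : ∀ᶠ n in atTop, |L.lv (p n)| ≤ |L.lv w| + 1 := by
    have h1 := (((L.lv_cont.tendsto w).comp hw).abs).eventually_lt_const (lt_add_one _)
    exact h1.mono fun n hn => hn.le
  filter_upwards [ev1, ev2] with n h1 h2
  have h3 : L.em (p n) ≠ η := fun h => hK₂ h1 h
  obtain ⟨h4, h5, h6⟩ := hz n h3
  exact ⟨⟨⟨by simp only [h4]; exact h1, h5⟩, by rw [h6]; exact h2⟩, h4, h5, h6⟩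

/-- continuity of the derivatives of the transition maps, filter form -/
theorem tau_tendsto (i : ℕ) {ι : Type} {l : Filter ι} {x y : ι → X} {u : ι → E2} {x₀ y₀ : X}
    {u₀ : E2} (hx : Tendsto x l (𝓝 x₀)) (hy : Tendsto y l (𝓝 y₀)) (hu : Tendsto u l (𝓝 u₀))
    (hem : ∀ᶠ n in l, L.em (x n) = L.em (y n)) (hdm : ∀ᶠ n in l, u n ∈ L.dm (x n) (y n))
    (hem₀ : L.em x₀ = L.em y₀) (hdm₀ : u₀ ∈ L.dm x₀ y₀) :
    Tendsto (fun n => iteratedFDeriv ℝ i (L.τ (x n) (y n)) (u n)) l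
      (𝓝 (iteratedFDeriv ℝ i (L.τ x₀ y₀) u₀)) := by
  have htc := L.tau_cont i ((x₀, y₀), u₀) ⟨hem₀, hdm₀⟩
  have hpt : Tendsto (fun n => ((x n, y n), u n)) l
      (𝓝[{p : (X × X) × E2 | L.em p.1.1 = L.em p.1.2 ∧ p.2 ∈ dom L.e p.1.1 p.1.2}]
        ((x₀, y₀), u₀)) := by
    refine tendsto_nhdsWithin_iff.mpr ⟨(hx.prodMk_nhds hy).prodMk_nhds hu, ?_⟩
    filter_upwards [hem, hdm] with n h1 h2
    exact ⟨h1, h2⟩
  exact htc.tendsto.comp hpt

/-- bound of the transition maps to the auxiliary frames -/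
theorem aux_tau {w : X} {p : ℕ → X} (hw : Tendsto p atTop (𝓝 w)) {u : E2}
    (hu3 : u ∈ ball (0 : E2) 3) {Z : Set X} {z : ℕ → X} (hZc : IsCompact Z)
    (hZ : ∀ y ∈ Z, L.ep y = L.e w u)
    (hz : ∀ᶠ n in atTop, z n ∈ Z ∧ L.em (z n) = L.em (p n)) {un : ℕ → E2}
    (hun : ∀ᶠ n in atTop, un n ∈ ball (0 : E2) 3 ∧ L.e (p n) (un n) = L.e w u)
    (hulim : Tendsto un atTop (𝓝 u)) {U : Ultrafilter ℕ} (hU : (U : Filter ℕ) ≤ atTop) :
    ∃ D : ℝ, ∀ᶠ n in (U : Filter ℕ), ‖fderiv ℝ (L.τ (p n) (z n)) (un n)‖ ≤ D := by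
  obtain ⟨z₀, hz₀, hz₀lim⟩ := hZc.ultrafilter_le_nhds (U.map z)
    (le_principal_iff.mpr (hU (hz.mono fun n hn => hn.1)))
  have hzlim : Tendsto z (U : Filter ℕ) (𝓝 z₀) := hz₀lim
  have hem₀ : L.em z₀ = L.em w := by
    have h1 : Tendsto (fun n => L.em (z n)) (U : Filter ℕ) (𝓝 (L.em z₀)) :=
      (L.em_cont.tendsto z₀).comp hzlim
    have h2 : Tendsto (fun n => L.em (z n)) (U : Filter ℕ) (𝓝 (L.em w)) := by
      refine (((L.em_cont.tendsto w).comp hw).mono_left hU).congr' ?_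
      filter_upwards [hU hz] with n hn
      exact hn.2.symm
    exact tendsto_nhds_unique h1 h2
  have hep₀ : L.ep z₀ = L.e w u := hZ _ hz₀
  have hdm₀ : u ∈ L.dm w z₀ := ⟨hu3, 0, by simp, by rw [L.e_zero, hep₀]⟩
  have htlim := L.tau_tendsto 1 (hw.mono_left hU) hzlim (hulim.mono_left hU)
    (hU (hz.mono fun n hn => hn.2.symm)) (by
      filter_upwards [hU hz, hU hun] with n h1 h2
      exact ⟨h2.1, 0, by simp, by rw [L.e_zero, hZ _ h1.1]; exact h2.2.symm⟩) hem₀.symm hdm₀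
  refine ⟨‖iteratedFDeriv ℝ 1 (L.τ w z₀) u‖ + 1, ?_⟩
  filter_upwards [htlim.norm.eventually_lt_const (lt_add_one _)] with n hn
  rw [norm_iteratedFDeriv_one] at hn
  exact hn.le

/-- the differential of the limit vanishes at good homoclinic points -/
theorem core_point {ξ η₀ : B} {f : B → V} {χ : ℝ} (hf : L.SmoothOn ξ f)
    (hH : L.HOM ξ η₀ f χ) {p : ℕ → X} (hp : ∀ n, L.em (p n) = ξ) {g : ℕ → Γ} {w : X}
    (hw : Tendsto (fun n => g n • p n) atTop (𝓝 w)) {c : ℕ → ℝ} (hc0 : ∀ n, 0 ≤ c n)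
    (hc : Tendsto (fun n => c n * Real.exp (-(χ * L.lv (p n)))) atTop (𝓝 0)) {a : ℕ → V}
    {G : E2 → V} (hcont : ContinuousOn (fderiv ℝ G) (ball 0 3))
    (hlim : TendstoUniformlyOn (fun n => fderiv ℝ (fun u => c n • (f (L.e (p n) u) - a n)))
      (fderiv ℝ G) atTop (ball 0 3)) {U : Ultrafilter ℕ} (hU : (U : Filter ℕ) ≤ atTop)
    {u : E2} (hu3 : u ∈ ball (0 : E2) 3) {k : Γ} (hkη : k • η₀ = L.e w u)
    (ev3 : ∀ᶠ n in (U : Filter ℕ), g n • η₀ ≠ k • η₀) : fderiv ℝ G u = 0 := by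
  have hne : L.em w ≠ k • η₀ := by
    rw [hkη]
    exact (L.e_ne w u (ball_subset_closedBall hu3)).symm
  obtain ⟨Z, z, hZc, hZep, ev4⟩ := L.aux_frames hw hne
  obtain ⟨C, hC⟩ := hH ((fun z => k⁻¹ • z) '' Z) (hZc.image (continuous_const_smul k⁻¹)) (by
    rintro _ ⟨z, hz, rfl⟩
    simp only
    rw [L.ep_smul, hZep z hz, inv_smul_smul])
  -- the positions of the homoclinic point
  obtain ⟨ev5, hulim⟩ := L.inv_tendsto (b := fun _ => k • η₀) hw
    (by rw [hkη]; exact tendsto_const_nhds) hu3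
  have hdmn : ∀ᶠ n in atTop, L.inv (g n • p n) (k • η₀) ∈ ball (0 : E2) 3 ∧
      L.e (g n • p n) (L.inv (g n • p n) (k • η₀)) = k • η₀ := by
    filter_upwards [ev5] with n hn
    exact ⟨L.inv_mem_ball le_rfl hn, L.e_inv (image_mono ball_subset_closedBall hn)⟩
  obtain ⟨D, ev6⟩ := L.aux_tau hw hu3 hZc (fun y hy => by rw [hZep y hy, hkη])
    (ev4.mono fun n hn => ⟨hn.1, hn.2.1⟩) (hdmn.mono fun n hn => ⟨hn.1, by rw [hn.2, hkη]⟩)
    hulim hU
  -- the bound of the differential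
  have hbd : ∀ᶠ n in (U : Filter ℕ),
      ‖fderiv ℝ (fun u => c n • (f (L.e (p n) u) - a n)) (L.inv (g n • p n) (k • η₀))‖ ≤
        (|C| * D) * (c n * Real.exp (-(χ * L.lv (p n)))) := by
    filter_upwards [hU ev4, hU hdmn, ev3, ev6] with n h1 h2 h3 h6
    exact L.core_bound hf hC ⟨z n, h1.1, rfl⟩ (hp n) (hc0 n) h1.2.1 h1.2.2.1 h1.2.2.2 h2.1 h2.2 h3 h6
  have hlim0 : Tendsto (fun n => fderiv ℝ (fun u => c n • (f (L.e (p n) u) - a n))
      (L.inv (g n • p n) (k • η₀))) (U : Filter ℕ) (𝓝 0) := by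
    refine squeeze_zero_norm' hbd ?_
    have := (hc.mono_left hU).const_mul (|C| * D)
    rwa [mul_zero] at this
  have hlimG : Tendsto (fun n => fderiv ℝ (fun u => c n • (f (L.e (p n) u) - a n))
      (L.inv (g n • p n) (k • η₀))) (U : Filter ℕ) (𝓝 (fderiv ℝ G u)) := by
    have h2 : Tendsto (fun n => L.inv (g n • p n) (k • η₀)) atTop (𝓝[ball 0 3] u) :=
      tendsto_nhdsWithin_iff.mpr ⟨hulim, hdmn.mono fun n hn => hn.1⟩
    exact (hlim.tendsto_comp (hcont u hu3) h2).mono_left hU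
  exact tendsto_nhds_unique hlimG hlim0

/-- THE DENSITY ARGUMENT of 2.1 -/
theorem core {ξ η₀ : B} {f : B → V} {χ : ℝ} (hf : L.SmoothOn ξ f) (hH : L.HOM ξ η₀ f χ)
    {p : ℕ → X} (hp : ∀ n, L.em (p n) = ξ) {g : ℕ → Γ} {w : X}
    (hw : Tendsto (fun n => g n • p n) atTop (𝓝 w)) {c : ℕ → ℝ} (hc0 : ∀ n, 0 ≤ c n)
    (hc : Tendsto (fun n => c n * Real.exp (-(χ * L.lv (p n)))) atTop (𝓝 0)) {a : ℕ → V}
    {G : E2 → V} (hG : ContDiffOn ℝ 1 G (ball 0 3))
    (hlim : TendstoUniformlyOn (fun n => fderiv ℝ (fun u => c n • (f (L.e (p n) u) - a n)))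
      (fderiv ℝ G) atTop (ball 0 3)) : ∀ u ∈ ball (0 : E2) 3, fderiv ℝ G u = 0 := by
  by_contra hcon
  push Not at hcon
  obtain ⟨u₁, hu₁, hne₁⟩ := hcon
  have hcont : ContinuousOn (fderiv ℝ G) (ball 0 3) := hG.continuousOn_fderiv_of_isOpen
    isOpen_ball le_rfl
  have hSo : IsOpen (ball (0 : E2) 3 ∩ fderiv ℝ G ⁻¹' {0}ᶜ) :=
    hcont.isOpen_inter_preimage isOpen_ball isOpen_compl_singleton
  let U : Ultrafilter ℕ := Ultrafilter.of atTop
  have hU : (U : Filter ℕ) ≤ atTop := Ultrafilter.of_le atTop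
  obtain ⟨u, hu, k, hk, hev⟩ := L.exists_homoclinic w η₀ g U hSo inter_subset_left
    (u₁ := u₁) ⟨hu₁, hne₁⟩
  exact hu.2 (L.core_point hf hH hp hw hc0 hc hcont hlim hU hu.1 hk hev)

end Leaf

end Vale.Agent.P207.N3
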