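import Vale.Agent.P207.H575.T3.Top

/-!
Line N3 of P207, package P6: definitions (oscillation on T-balls, homoclinic bound, limit objects).
-/

namespace Vale.Agent.P207.N3

open Set Filter Topology Metric MeasureTheory
open scoped ContDiff

set_option linter.unusedSectionVars false

variable {Γ X B : Type} [Group Γ] [MetricSpace X] [ProperSpace X] [MulAction Γ X]
  [IsIsometricSMul Γ X] [TopologicalSpace B] [CompactSpace B] [T2Space B] [MulAction Γ B]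
  [ContinuousConstSMul Γ B]

namespace Leaf

variable (L : Leaf Γ X B) {V : Type} [NormedAddCommGroup V] [NormedSpace ℝ V]

/-- U_ALL: f oscillates by at most C exp(-chi T) on all T-balls over compact sets -/
def UALL (ξ : B) (f : B → V) (χ : ℝ) : Prop :=
  ∀ K : Set X, IsCompact K → (∀ x ∈ K, L.em x = ξ) → ∃ C : ℝ, ∀ x ∈ K, ∀ T ≥ (0 : ℝ),
    ∀ u ∈ closedBall (0 : E2) 1, ‖f (L.e (L.φ T x) u) - f (L.ep x)‖ ≤ C * Real.exp (-(χ * T))

/-- the bound of df at all homoclinic points k eta0 of the leaf of xi, seen at the stable level -/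
def HOM (ξ η₀ : B) (f : B → V) (χ : ℝ) : Prop :=
  ∀ Q : Set X, IsCompact Q → (∀ y ∈ Q, L.ep y = η₀) → ∃ C : ℝ, ∀ y ∈ Q, ∀ k : Γ,
    L.em (k • y) = ξ → k • η₀ ≠ η₀ →
    ‖fderiv ℝ (fun u => f (L.e (k • y) u)) 0‖ ≤ C * Real.exp (-(χ * L.lv (k • y)))

/-- limit objects of the rescaled function exp(chi T)(f - f(eta)) -/
def IsLim (ξ : B) (f : B → V) (χ : ℝ) (w : X) (F : E2 → V) : Prop :=
  ∃ (K : Set X) (x : ℕ → X) (T : ℕ → ℝ) (g : ℕ → Γ), IsCompact K ∧ (∀ n, x n ∈ K) ∧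
    (∀ n, L.em (x n) = ξ) ∧ Tendsto T atTop atTop ∧
    Tendsto (fun n => g n • L.φ (T n) (x n)) atTop (𝓝 w) ∧
    ContDiffOn ℝ ∞ F (ball 0 2) ∧
    ∀ j : ℕ, TendstoUniformlyOn (fun n => iteratedFDeriv ℝ j (fun u : E2 =>
      Real.exp (χ * T n) • (f (L.e (L.φ (T n) (x n)) u) - f (L.ep (x n)))))
      (iteratedFDeriv ℝ j F) atTop (ball 0 2)

/-- condition (W): two limit objects at one frame have proportional differentials -/
def WW (ξ : B) (f : B → ℝ) (χ : ℝ) : Prop :=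
  ∀ (w : X) (F F' : E2 → ℝ), L.IsLim ξ f χ w F → L.IsLim ξ f χ w F' →
    ∀ u ∈ ball (0 : E2) 2, ∃ a b : ℝ, (a ≠ 0 ∨ b ≠ 0) ∧ a • fderiv ℝ F u + b • fderiv ℝ F' u = 0

end Leaf

end Vale.Agent.P207.N3
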