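import Vale.Agent.P207.H575.T3.UA

/-!
Line N3 of P207, package P6: existence of limit objects under U_ALL.
-/

namespace Vale.Agent.P207.N3

open Set Filter Topology Metric MeasureTheory
open scoped ContDiff Nat

set_option linter.unusedSectionVars false

variable {Γ X B : Type} [Group Γ] [MetricSpace X] [ProperSpace X] [MulAction Γ X]
  [IsIsometricSMul Γ X] [TopologicalSpace B] [CompactSpace B] [T2Space B] [MulAction Γ B]
  [ContinuousConstSMul Γ B]

namespace Leaf

variable (L : Leaf Γ X B)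

variable {V : Type} [NormedAddCommGroup V] [NormedSpace ℝ V]

/-- under U_ALL the rescaled functions are bounded with all derivatives -/
theorem uall_bound {ξ : B} {f : B → V} {χ : ℝ} (hf : L.SmoothOn ξ f) (hU : L.UALL ξ f χ)
    {K : Set X} (hK : IsCompact K) (hKξ : ∀ x ∈ K, L.em x = ξ) :
    ∃ C : ℕ → ℝ, ∀ x ∈ K, ∀ T ≥ L.t1, ∀ k, H545.CkB k 3 (C k)
      (fun u => Real.exp (χ * T) • (f (L.e (L.φ T x) u) - f (L.ep x))) := by
  obtain ⟨t, ht, hsb⟩ := L.scaled_bound V χ
  have ht0 : 0 < t := lt_of_lt_of_le L.t1_pos ht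
  obtain ⟨C₀, hC₀⟩ := hU K hK hKξ
  -- the constant
  set M : ℝ := |C₀| * Real.exp (|χ| * (L.t1 + t)) * Real.exp (|χ| * (L.t1 + t)) +
    Real.exp (|χ| * (L.t1 + t)) with hM
  obtain ⟨C, hC⟩ := hsb hf hK hKξ M
  refine ⟨C, fun x hx T hT k => ?_⟩
  set j : ℕ := ⌊(T - L.t1) / t⌋₊ with hj
  have hj1 : (j : ℝ) * t ≤ T - L.t1 := by
    have := Nat.floor_le (show 0 ≤ (T - L.t1) / t by
      apply div_nonneg (by linarith) ht0.le)
    rwa [le_div_iff₀ ht0] at this
  have hj2 : T - L.t1 < (j + 1) * t := by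
    have := Nat.lt_floor_add_one ((T - L.t1) / t)
    rwa [div_lt_iff₀ ht0] at this
  obtain ⟨r, hr⟩ : ∃ r, r = T - j * t := ⟨_, rfl⟩
  have hr1 : L.t1 ≤ r := by rw [hr]; linarith
  have hr2 : r ≤ L.t1 + t := by rw [hr]; linarith
  have hTr : T = r + j * t := by rw [hr]; ring
  have e1 : L.φ T x = L.φ (j * t) (L.φ r x) := by
    rw [← L.φ_add]
    congr 1
    rw [hr]; ring
  have hr0 : 0 ≤ r := L.t1_pos.le.trans hr1
  have hχr : χ * r ≤ |χ| * (L.t1 + t) := by
    calc χ * r ≤ |χ| * r := by gcongr; exact le_abs_self _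
      _ ≤ |χ| * (L.t1 + t) := by gcongr
  have hχt : χ * t ≤ |χ| * (L.t1 + t) := by
    have := L.t1_pos.le
    calc χ * t ≤ |χ| * t := by gcongr; exact le_abs_self _
      _ ≤ |χ| * (L.t1 + t) := by gcongr; linarith
  have hE0 : 0 < Real.exp (|χ| * (L.t1 + t)) := Real.exp_pos _
  have hE1 : 1 ≤ Real.exp (|χ| * (L.t1 + t)) := by
    apply Real.one_le_exp
    have := L.t1_pos.le
    positivity
  have key := hC x r j (Real.exp (χ * T)) hx hr1 (Real.exp_pos _).le ?_ ?_ k
  · rw [e1]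
    exact key
  · intro s hs u hu
    rcases Nat.lt_or_ge s j with hlt | hge
    · obtain ⟨m, hm⟩ : ∃ m, j - s = m + 1 := ⟨j - s - 1, by omega⟩
      rw [hm]
      obtain ⟨v', hv', hvv⟩ := L.step_mem ht (L.φ r x) m hu
      rw [hvv]
      have e2 : L.φ ((m : ℝ) * t) (L.φ r x) = L.φ (m * t + r) x := by rw [L.φ_add]
      rw [e2]
      have h1 := hC₀ x hx (m * t + r) (by positivity) v' hv'
      have e3 : (j : ℝ) = s + (m + 1) := by
        have : j = s + (m + 1) := by omega
        rw [this]; push_cast; ring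
      calc Real.exp (χ * T) * ‖f (L.e (L.φ (m * t + r) x) v') - f (L.ep x)‖
          ≤ Real.exp (χ * T) * (|C₀| * Real.exp (-(χ * (m * t + r)))) := by
            gcongr
            exact h1.trans (by gcongr; exact le_abs_self _)
        _ = |C₀| * Real.exp (χ * t) * Real.exp (χ * t * s) := by
            rw [mul_left_comm, ← Real.exp_add, mul_assoc, ← Real.exp_add, hTr, e3]
            congr 2
            ring
        _ ≤ |C₀| * Real.exp (|χ| * (L.t1 + t)) * Real.exp (χ * t * s) := by gcongr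
        _ ≤ M * Real.exp (χ * t * s) := by
            gcongr
            rw [hM]
            have : |C₀| * Real.exp (|χ| * (L.t1 + t)) * 1 ≤
                |C₀| * Real.exp (|χ| * (L.t1 + t)) * Real.exp (|χ| * (L.t1 + t)) := by gcongr
            linarith
    · have hs' : s = j := le_antisymm hs hge
      rw [hs', Nat.sub_self, Nat.cast_zero, zero_mul, L.φ_zero]
      have h0 : L.e (L.φ r x) u = L.e x (L.τ (L.φ r x) x u) :=
        (L.e_tau (by rw [L.dm_engulf _ hr1]; exact hu)).symm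
      rw [h0]
      have h1 := hC₀ x hx 0 le_rfl (L.τ (L.φ r x) x u)
        (ball_subset_closedBall (L.tau_engulf _ hr1 hu))
      rw [L.φ_zero, mul_zero, neg_zero, Real.exp_zero, mul_one] at h1
      calc Real.exp (χ * T) * ‖f (L.e x (L.τ (L.φ r x) x u)) - f (L.ep x)‖
          ≤ Real.exp (χ * T) * |C₀| := by
            gcongr
            exact h1.trans (le_abs_self _)
        _ = |C₀| * Real.exp (χ * r) * Real.exp (χ * t * j) := by
            rw [mul_comm, mul_assoc, ← Real.exp_add, hTr]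
            congr 2
            ring
        _ ≤ |C₀| * Real.exp (|χ| * (L.t1 + t)) * Real.exp (χ * t * j) := by gcongr
        _ ≤ M * Real.exp (χ * t * (j : ℕ)) := by
            gcongr
            rw [hM]
            have : |C₀| * Real.exp (|χ| * (L.t1 + t)) * 1 ≤
                |C₀| * Real.exp (|χ| * (L.t1 + t)) * Real.exp (|χ| * (L.t1 + t)) := by gcongr
            linarith
  · calc Real.exp (χ * T) = Real.exp (χ * r) * Real.exp (χ * t * j) := by
          rw [← Real.exp_add, hTr]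
          congr 1
          ring
      _ ≤ Real.exp (|χ| * (L.t1 + t)) * Real.exp (χ * t * j) := by gcongr
      _ ≤ M * Real.exp (χ * t * j) := by
          gcongr
          rw [hM]
          have : 0 ≤ |C₀| * Real.exp (|χ| * (L.t1 + t)) * Real.exp (|χ| * (L.t1 + t)) := by
            positivity
          linarith

/-- EXISTENCE OF LIMIT OBJECTS -/
theorem exists_isLim [FiniteDimensional ℝ V] {ξ : B} {f : B → V} {χ : ℝ}
    (hf : L.SmoothOn ξ f) (hU : L.UALL ξ f χ) {K : Set X} (hK : IsCompact K)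
    (hKξ : ∀ x ∈ K, L.em x = ξ) {x : ℕ → X} (hx : ∀ n, x n ∈ K) {T : ℕ → ℝ}
    (hT : Tendsto T atTop atTop) {g : ℕ → Γ} {w : X}
    (hw : Tendsto (fun n => g n • L.φ (T n) (x n)) atTop (𝓝 w)) :
    ∃ ψ : ℕ → ℕ, StrictMono ψ ∧ ∃ G : E2 → V, ContDiffOn ℝ ∞ G (ball 0 3) ∧
      (∀ j : ℕ, TendstoUniformlyOn (fun n => iteratedFDeriv ℝ j (fun u : E2 =>
        Real.exp (χ * T (ψ n)) • (f (L.e (L.φ (T (ψ n)) (x (ψ n))) u) - f (L.ep (x (ψ n))))))
        (iteratedFDeriv ℝ j G) atTop (ball 0 3)) ∧ L.IsLim ξ f χ w G := by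
  obtain ⟨C, hC⟩ := L.uall_bound hf hU hK hKξ
  obtain ⟨n₀, hn₀⟩ := eventually_atTop.mp (hT.eventually_ge_atTop L.t1)
  obtain ⟨ψ, hψ, G, hG, hGlim⟩ := H828.ck_subseq_top (S := ball (0 : E2) 3) isOpen_ball
    (convex_ball 0 3) isBounded_ball (M := C)
    (F := fun n => fun u => Real.exp (χ * T (n + n₀)) •
      (f (L.e (L.φ (T (n + n₀)) (x (n + n₀))) u) - f (L.ep (x (n + n₀)))))
    (fun k n => ⟨(hC _ (hx _) _ (hn₀ _ (by omega)) k).1, fun j _ v hv =>
      (hC _ (hx _) _ (hn₀ _ (by omega)) j).2 j le_rfl v hv⟩)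
  have hψ' : StrictMono (fun n => ψ n + n₀) := fun a b h => Nat.add_lt_add_right (hψ h) n₀
  have hGs : ContDiffOn ℝ ∞ G (ball 0 3) := by
    rw [contDiffOn_infty]
    exact fun n => (hG n).1
  refine ⟨fun n => ψ n + n₀, hψ', G, hGs, hGlim, K, fun n => x (ψ n + n₀), fun n => T (ψ n + n₀),
    fun n => g (ψ n + n₀), hK, fun n => hx _, fun n => hKξ _ (hx _),
    hT.comp hψ'.tendsto_atTop, hw.comp hψ'.tendsto_atTop, hGs.mono (ball_subset_ball (by norm_num)),
    fun j => (hGlim j).mono (ball_subset_ball (by norm_num))⟩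

end Leaf

end Vale.Agent.P207.N3
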