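import Vale.Agent.P207.H575.T3.Seen

/-!
Line N3 of P207, package P6: Lemma R for functions on a leaf (uniform C^k bounds of rescaled
functions).
-/

namespace Vale.Agent.P207.N3

open Set Filter Topology Metric MeasureTheory
open scoped ContDiff Nat
open Vale.Agent.P207.N3.H545 (CkB exists_lemma_R)

set_option linter.unusedSectionVars false

variable {Γ X B : Type} [Group Γ] [MetricSpace X] [ProperSpace X] [MulAction Γ X]
  [IsIsometricSMul Γ X] [TopologicalSpace B] [CompactSpace B] [T2Space B] [MulAction Γ B]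
  [ContinuousConstSMul Γ B]

namespace Leaf

variable (L : Leaf Γ X B)

/-- bounds of all derivatives of the contracting transition maps -/
theorem tau_bound : ∃ D : ℕ → ℝ, (∀ k, 1 ≤ D k) ∧ ∀ k, ∀ x, ∀ t ≥ L.t1, ∀ i, 1 ≤ i → i ≤ k →
    ∀ u ∈ ball (0 : E2) 3, ‖iteratedFDeriv ℝ i (L.τ (L.φ t x) x) u‖ ≤ D k := by
  choose C hC using fun k : ℕ => fun hk : 1 ≤ k => L.contract k hk
  let C' : ℕ → ℝ := fun k => if hk : 1 ≤ k then |C k hk| else 0
  refine ⟨fun k => 1 + ∑ i ∈ Finset.range (k + 1), C' i, fun k => ?_, fun k x t ht i hi1 hi u hu => ?_⟩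
  · have : 0 ≤ ∑ i ∈ Finset.range (k + 1), C' i := Finset.sum_nonneg fun i _ => by
      simp only [C']
      split_ifs <;> positivity
    show 1 ≤ 1 + _
    linarith
  · have h1 := hC i hi1 x t ht u hu
    have hexp : Real.exp (-L.χ * t) ≤ 1 := by
      rw [Real.exp_le_one_iff]
      have h2 := L.χ_pos
      have h3 := L.t1_pos.le.trans ht
      nlinarith
    have h2 : C i hi1 * Real.exp (-L.χ * t) ≤ |C i hi1| := by
      calc C i hi1 * Real.exp (-L.χ * t) ≤ |C i hi1| * Real.exp (-L.χ * t) := by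
            gcongr
            exact le_abs_self _
        _ ≤ |C i hi1| * 1 := by gcongr
        _ = |C i hi1| := mul_one _
    have h3 : C' i ≤ ∑ i ∈ Finset.range (k + 1), C' i :=
      Finset.single_le_sum (f := C') (fun i _ => by
        simp only [C']
        split_ifs <;> positivity) (Finset.mem_range.mpr (by omega))
    have h4 : C' i = |C i hi1| := by simp only [C', dif_pos hi1]
    show _ ≤ 1 + _
    have h5 : ‖iteratedFDeriv ℝ i (L.τ (L.φ t x) x) u‖ ≤ |C i hi1| := h1.trans h2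
    rw [← h4] at h5
    linarith

variable {V : Type} [NormedAddCommGroup V] [NormedSpace ℝ V]

/-- smooth functions are bounded with all derivatives on the whole discs at times >= t1 over a
compact set -/
theorem start_bound {ξ : B} {f : B → V} (hf : L.SmoothOn ξ f) {K : Set X} (hK : IsCompact K)
    (hKξ : ∀ x ∈ K, L.em x = ξ) :
    ∃ C : ℕ → ℝ, (∀ k, 0 ≤ C k) ∧ ∀ k, ∀ x ∈ K, ∀ t ≥ L.t1,
      CkB k 3 (C k) (fun u => f (L.e (L.φ t x) u)) := by
  choose C₀ hC₀ using fun k => L.init_bound hf hK hKξ (r := 1) (by norm_num) k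
  obtain ⟨D, hD1, hD⟩ := L.tau_bound
  let S : ℕ → ℝ := fun k => ∑ i ∈ Finset.range (k + 1), |C₀ i|
  have hS0 : ∀ k, 0 ≤ S k := fun k => Finset.sum_nonneg fun i _ => abs_nonneg _
  have hpt : ∀ k, ∀ x ∈ K, ∀ t ≥ L.t1, ∀ u ∈ ball (0 : E2) 3,
      ‖iteratedFDeriv ℝ k (fun u => f (L.e (L.φ t x) u)) u‖ ≤ k ! * S k * D k ^ k := by
    intro k x hx t ht u hu
    refine norm_comp_le_open isOpen_ball isOpen_ball (g := fun u => f (L.e x u))
      (h := L.τ (L.φ t x) x) (hf x (hKξ x hx)) ?_ ?_ hu k (hD1 k) (fun i hi => ?_)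
      (fun i hi1 hi => hD k x t ht i hi1 hi u hu) (fun v hv => ?_)
    · have := L.tau_smooth (L.φ t x) x (L.em_φ t x)
      rw [show dom L.e (L.φ t x) x = L.dm (L.φ t x) x from rfl, L.dm_engulf x ht] at this
      exact this
    · intro v hv
      exact ball_subset_ball (by norm_num) (L.tau_engulf x ht hv)
    · refine (hC₀ i x hx _ (ball_subset_closedBall (L.tau_engulf x ht hu))).trans ?_
      exact (le_abs_self _).trans (Finset.single_le_sum (f := fun i => |C₀ i|)
        (fun i _ => abs_nonneg _) (Finset.mem_range.mpr (by omega)))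
    · exact congrArg f (L.e_tau (by rw [L.dm_engulf x ht]; exact hv)).symm
  let M : ℕ → ℝ := fun k => ∑ i ∈ Finset.range (k + 1), (i ! * S i * D i ^ i)
  have hterm : ∀ i, 0 ≤ (i ! : ℝ) * S i * D i ^ i := fun i => by
    have := hS0 i
    have h2 : 0 ≤ D i := zero_le_one.trans (hD1 i)
    positivity
  refine ⟨M, fun k => Finset.sum_nonneg fun i _ => hterm i, fun k x hx t ht => ⟨?_, ?_⟩⟩
  · refine (hf (L.φ t x) ?_).of_le (by exact_mod_cast le_top)
    rw [L.em_φ]
    exact hKξ x hx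
  · intro i hi u hu
    exact (hpt i x hx t ht u hu).trans (Finset.single_le_sum
      (f := fun i => (i ! : ℝ) * S i * D i ^ i) (fun i _ => hterm i)
      (Finset.mem_range.mpr (by omega)))

/-- LEMMA R for functions on a leaf, with one fixed step t -/
theorem rescaled_bound (V : Type) [NormedAddCommGroup V] [NormedSpace ℝ V] (Λ : ℝ) : ∃ t ≥ L.t1, ∀ D : ℕ → ℝ, ∃ C : ℕ → ℝ, (∀ k, 0 ≤ C k) ∧
    ∀ (F : B → V) (x : X) (T : ℕ) (M : ℝ), 0 ≤ M → L.SmoothOn (L.em x) F →
      (∀ s ≤ T, ∀ u ∈ ball (0 : E2) 3, ‖F (L.e (L.φ (((T - s : ℕ) : ℝ) * t) x) u)‖ ≤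
        M * Real.exp (Λ * t * s)) →
      (∀ k, CkB k 3 (D k * (M * Real.exp (Λ * t * T))) (fun u => F (L.e x u))) →
      ∀ k, CkB k 3 (C k * M) (fun u => F (L.e (L.φ (T * t) x) u)) := by
  obtain ⟨C₁, hC₁⟩ := L.contract 1 le_rfl
  have hχ := L.χ_pos
  -- choice of the step
  obtain ⟨t, ht1, ht2, ht3⟩ : ∃ t ≥ L.t1, C₁ * Real.exp (-(L.χ / 2) * t) ≤ 1 ∧
      Real.exp (-t) ≤ 1 / 4 := by
    have h1 : Tendsto (fun t : ℝ => Real.exp (-((L.χ / 2) * t))) atTop (𝓝 0) :=
      Real.tendsto_exp_neg_atTop_nhds_zero.comp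
        (Tendsto.const_mul_atTop (by positivity) tendsto_id)
    have h2 : Tendsto (fun t : ℝ => C₁ * Real.exp (-((L.χ / 2) * t))) atTop (𝓝 (C₁ * 0)) :=
      h1.const_mul C₁
    rw [mul_zero] at h2
    have h3 := (tendsto_order.mp h2).2 1 one_pos
    have h4 := (tendsto_order.mp Real.tendsto_exp_neg_atTop_nhds_zero).2 (1 / 4) (by norm_num)
    obtain ⟨t, hta, htb, htc⟩ := (h3.and (h4.and (eventually_ge_atTop L.t1))).exists
    refine ⟨t, htc, ?_, htb.le⟩
    rw [neg_mul]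
    exact hta.le
  have ht0 : 0 < t := lt_of_lt_of_le L.t1_pos ht1
  set θ : ℝ := Real.exp (-(L.χ / 2) * t) with hθ
  have hθ0 : 0 < θ := Real.exp_pos _
  have hfd : ∀ x, ∀ u ∈ ball (0 : E2) 3, ‖fderiv ℝ (L.τ (L.φ t x) x) u‖ ≤ θ := by
    intro x u hu
    have h1 := hC₁ x t ht1 u hu
    rw [norm_iteratedFDeriv_one] at h1
    refine h1.trans ?_
    have e : Real.exp (-L.χ * t) = θ * θ := by
      rw [hθ, ← Real.exp_add]
      congr 1
      ring
    rw [e, ← mul_assoc]
    calc C₁ * θ * θ ≤ 1 * θ := by gcongr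
      _ = θ := one_mul θ
  obtain ⟨k₀, hk₀⟩ : ∃ k₀ : ℕ, Λ + 1 ≤ k₀ * (L.χ / 2) := by
    obtain ⟨k₀, h⟩ := exists_nat_ge ((Λ + 1) / (L.χ / 2))
    refine ⟨k₀, ?_⟩
    rwa [div_le_iff₀ (by positivity)] at h
  obtain ⟨Dτ, hDτ1, hDτ⟩ := L.tau_bound
  refine ⟨t, ht1, fun D => ?_⟩
  choose C hC1 hC using fun k : ℕ => exists_lemma_R (max k k₀) E2 (r := 1) (R := 3)
    (by norm_num) (max (Dτ (max k k₀)) 1) (Λ * t)
  refine ⟨fun k => C k * max 1 (D (max k k₀)), fun k => by
    have := hC1 k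
    positivity, fun F x T M hM hF hsup hinit k => ?_⟩
  set m := max k k₀ with hm
  set M' : ℝ := M * max 1 (D m) with hM'
  have hM'0 : 0 ≤ M' := by positivity
  have hMM' : M ≤ M' := by
    calc M = M * 1 := (mul_one M).symm
      _ ≤ M' := by rw [hM']; gcongr; exact le_max_left _ _
  have hθk : 1 * θ ^ m * Real.exp (Λ * t) ≤ 1 / 4 := by
    rw [one_mul, hθ, ← Real.exp_nat_mul, ← Real.exp_add]
    refine le_trans (Real.exp_le_exp.mpr ?_) ht3
    have h1 : (k₀ : ℝ) ≤ m := by exact_mod_cast le_max_right _ _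
    have h2 : Λ + 1 ≤ m * (L.χ / 2) := hk₀.trans (by gcongr)
    nlinarith
  have hZ := hC k V T M' 1 θ (fun s => fun u => F (L.e (L.φ (((T - s : ℕ) : ℝ) * t) x) u))
    (fun _ _ => 0) (fun _ _ => ContinuousLinearMap.id ℝ V)
    (fun s => L.τ (L.φ t (L.φ (((T - (s + 1) : ℕ) : ℝ) * t) x))
      (L.φ (((T - (s + 1) : ℕ) : ℝ) * t) x)) hM'0 zero_le_one hθ0.le hθk
    (fun s _ => (hF _ (L.em_φ _ _)).of_le (by exact_mod_cast le_top))
    (fun s _ => by
      have := L.tau_smooth (L.φ t (L.φ (((T - (s + 1) : ℕ) : ℝ) * t) x))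
        (L.φ (((T - (s + 1) : ℕ) : ℝ) * t) x) (L.em_φ _ _)
      rw [show dom L.e (L.φ t (L.φ (((T - (s + 1) : ℕ) : ℝ) * t) x))
        (L.φ (((T - (s + 1) : ℕ) : ℝ) * t) x) = L.dm _ _ from rfl, L.dm_engulf _ ht1] at this
      exact this.of_le (by exact_mod_cast le_top))
    (fun s _ u hu => L.tau_engulf _ ht1 hu)
    (fun s _ u hu => ⟨ContinuousLinearMap.norm_id_le, hfd _ u hu⟩)
    (fun s _ => ⟨contDiffOn_const, fun i hi u hu => by
      rcases Nat.eq_zero_or_pos i with h0 | h0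
      · subst h0
        rw [norm_iteratedFDeriv_zero]
        exact ContinuousLinearMap.norm_id_le.trans (le_max_right _ _)
      · rw [iteratedFDeriv_const_of_ne (by omega)]
        simp⟩)
    (fun s _ i hi1 hi u hu => (hDτ m _ t ht1 i hi1 hi u hu).trans (le_max_left _ _))
    (fun s hs u hu => by
      have e1 : T - s = (T - (s + 1)) + 1 := by omega
      have e2 : L.φ (((T - s : ℕ) : ℝ) * t) x =
          L.φ t (L.φ (((T - (s + 1) : ℕ) : ℝ) * t) x) := by
        rw [← L.φ_add, e1]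
        congr 1
        push_cast
        ring
      simp only [ContinuousLinearMap.id_apply, add_zero]
      rw [e2, L.e_tau (by rw [L.dm_engulf _ ht1]; exact hu)])
    (fun s hs u hu => (hsup s hs u hu).trans (by gcongr))
    (fun s _ => ⟨contDiffOn_const, fun i hi u hu => by
      have : iteratedFDeriv ℝ i (fun _ : E2 => (0 : V)) u = 0 := by
        simp
      rw [this, norm_zero]
      positivity⟩)
    (by
      have h1 := hinit m
      rw [Nat.sub_self]
      simp only [Nat.cast_zero, zero_mul, L.φ_zero]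
      refine h1.mono le_rfl le_rfl ?_
      rw [hM', ← mul_assoc, mul_comm (D m) M]
      gcongr
      exact le_max_right _ _)
    0 (Nat.zero_le T)
  simp only [Nat.sub_zero, Nat.cast_zero, mul_zero, Real.exp_zero, mul_one] at hZ
  refine hZ.mono (le_max_left _ _) le_rfl ?_
  show C k * M' ≤ C k * max 1 (D m) * M
  rw [hM']
  apply le_of_eq
  ring

end Leaf

end Vale.Agent.P207.N3
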