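import Mathlib

/-!
Paper package P7 of the n = 3 proof (helper308, part 2, section 2.4):
a semigroup in SL2(R) all of whose elements have trace at most 2 in absolute value
preserves a positive definite form, or a line.
-/

namespace Vale.Agent.P207.H575.T3

open Matrix Filter Topology

abbrev M2 := Matrix (Fin 2) (Fin 2) ℝ

theorem tr2 (a : M2) : a.trace = a 0 0 + a 1 1 := by
  simp [Matrix.trace, Fin.sum_univ_two]

theorem mul2 (a b : M2) (i j : Fin 2) : (a * b) i j = a i 0 * b 0 j + a i 1 * b 1 j := by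
  simp [Matrix.mul_apply, Fin.sum_univ_two]

/-- parabolic step, matrix form -/
theorem par_pow (N : M2) (hN : N * N = 0) (n : ℕ) : (1 + N) ^ n = 1 + (n : ℝ) • N := by
  induction n with
  | zero => simp
  | succ n ih =>
    rw [pow_succ, ih]
    push_cast
    rw [add_mul, mul_add, mul_add, one_mul, one_mul, mul_one, smul_mul_assoc, hN, add_smul,
      one_smul]
    simp
    abel

theorem nil_of {N : M2} (h1 : N.trace = 0) (h2 : N.det = 0) : N * N = 0 := by
  rw [tr2] at h1
  rw [Matrix.det_fin_two] at h2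
  have h3 : N 1 1 = - N 0 0 := by linarith
  ext i j
  rw [mul2]
  fin_cases i <;> fin_cases j <;> simp [h3] at h2 ⊢ <;> nlinarith

/-- the trace of a product is unbounded along powers unless the linear term vanishes -/
theorem lin_zero {x y C : ℝ} (h : ∀ n : ℕ, |x + n * y| ≤ C) : y = 0 := by
  by_contra hy
  have hy' : 0 < |y| := abs_pos.mpr hy
  obtain ⟨n, hn⟩ := exists_nat_gt ((C + |x|) / |y|)
  have h1 := h n
  rw [div_lt_iff₀ hy'] at hn
  have h2 : |(n : ℝ) * y| ≤ |x + n * y| + |x| := by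
    have : (n : ℝ) * y = (x + n * y) - x := by ring
    calc |(n : ℝ) * y| = |(x + n * y) - x| := by rw [← this]
      _ ≤ |x + n * y| + |x| := abs_sub _ _
  rw [abs_mul, Nat.abs_cast] at h2
  linarith

/-- eigenvalue bound: an eigenvalue of a trace bounded element of SL2 has modulus one -/
theorem eig_abs {s : M2} (hd : s.det = 1) (ht : |s.trace| ≤ 2) {v0 v1 c : ℝ}
    (hv : v0 ≠ 0 ∨ v1 ≠ 0) (h0 : s 0 0 * v0 + s 0 1 * v1 = c * v0)
    (h1 : s 1 0 * v0 + s 1 1 * v1 = c * v1) : |c| = 1 := by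
  rw [Matrix.det_fin_two] at hd
  rw [tr2] at ht
  have hc : c * c - c * (s 0 0 + s 1 1) + 1 = 0 := by
    have e0 : (c * c - c * (s 0 0 + s 1 1) + 1) * v0 = 0 := by
      linear_combination (s 1 1 - c) * h0 - s 0 1 * h1 - v0 * hd
    have e1 : (c * c - c * (s 0 0 + s 1 1) + 1) * v1 = 0 := by
      linear_combination (s 0 0 - c) * h1 - s 1 0 * h0 - v1 * hd
    rcases hv with h | h
    · exact (mul_eq_zero.mp e0).resolve_right h
    · exact (mul_eq_zero.mp e1).resolve_right h
  have h2 : c * (s 0 0 + s 1 1) ≤ |c| * 2 := by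
    calc c * (s 0 0 + s 1 1) ≤ |c * (s 0 0 + s 1 1)| := le_abs_self _
      _ = |c| * |s 0 0 + s 1 1| := abs_mul _ _
      _ ≤ |c| * 2 := by gcongr
  have h3 : |c| * |c| = c * c := abs_mul_abs_self c
  nlinarith [sq_nonneg (|c| - 1)]

/-- if the semigroup contains a nontrivial element of trace two in modulus, it preserves
a line -/
theorem par_case {S : Set M2} (hmul : ∀ a ∈ S, ∀ b ∈ S, a * b ∈ S)
    (hdet : ∀ a ∈ S, a.det = 1) (htr : ∀ a ∈ S, |a.trace| ≤ 2) {p : M2} (hp : p ∈ S)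
    (h2 : |p.trace| = 2) (hp1 : p ≠ 1) (hp2 : p ≠ -1) :
    ∃ v0 v1 : ℝ, (v0 ≠ 0 ∨ v1 ≠ 0) ∧ ∀ s ∈ S, ∃ c : ℝ, |c| = 1 ∧
      s 0 0 * v0 + s 0 1 * v1 = c * v0 ∧ s 1 0 * v0 + s 1 1 * v1 = c * v1 := by
  -- choose the sign
  obtain ⟨e, he, hpe, hne⟩ : ∃ e : ℝ, e * e = 1 ∧ p.trace = 2 * e ∧ e • p ≠ 1 := by
    rcases abs_eq (by norm_num : (0 : ℝ) ≤ 2) |>.mp h2 with h | h
    · exact ⟨1, by norm_num, by rw [h]; norm_num, by simpa using hp1⟩
    · refine ⟨-1, by norm_num, by rw [h]; norm_num, fun h' => hp2 ?_⟩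
      rw [neg_one_smul] at h'
      rw [← h', neg_neg]
  set N : M2 := e • p - 1 with hN
  have hNt : N.trace = 0 := by
    rw [hN, Matrix.trace_sub, Matrix.trace_smul, hpe, Matrix.trace_one]
    simp
    linear_combination 2 * he
  have hNd : N.det = 0 := by
    have hd := hdet p hp
    rw [Matrix.det_fin_two] at hd
    rw [tr2] at hpe
    rw [hN, Matrix.det_fin_two]
    simp
    linear_combination e * e * hd - e * hpe - he
  have hNN := nil_of hNt hNd
  have hN0 : N ≠ 0 := by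
    intro h
    exact hne (sub_eq_zero.mp h)
  -- trace of N s vanishes
  have key : ∀ s ∈ S, (N * s).trace = 0 := by
    intro s hs
    have hpn : ∀ n : ℕ, p ^ n * s ∈ S := by
      intro n
      induction n with
      | zero => simpa using hs
      | succ n ih =>
        rw [pow_succ', mul_assoc]
        exact hmul _ hp _ ih
    have hpw : ∀ n : ℕ, (e • p) ^ n * s = s + (n : ℝ) • (N * s) := by
      intro n
      have : e • p = 1 + N := by rw [hN]; abel
      rw [this, par_pow N hNN, add_mul, one_mul, smul_mul_assoc]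
    apply lin_zero (x := s.trace) (C := 2)
    intro n
    have h3 : s.trace + n * (N * s).trace = ((e • p) ^ n * s).trace := by
      rw [hpw n, Matrix.trace_add, Matrix.trace_smul, smul_eq_mul]
    rw [h3, smul_pow, smul_mul_assoc, Matrix.trace_smul, smul_eq_mul, abs_mul]
    have h4 : |e ^ n| = 1 := by
      have : |e| = 1 := by
        have h5 : |e| * |e| = 1 := by rw [abs_mul_abs_self]; exact he
        nlinarith [abs_nonneg e]
      rw [abs_pow, this, one_pow]
    rw [h4, one_mul]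
    exact htr _ (hpn n)
  -- the invariant line
  have hx : N 1 1 = - N 0 0 := by rw [tr2] at hNt; linarith
  have hy : N 0 0 * N 0 0 + N 0 1 * N 1 0 = 0 := by
    rw [Matrix.det_fin_two, hx] at hNd
    linarith
  obtain ⟨v0, v1, hv, hk0, hk1, hran⟩ : ∃ v0 v1 : ℝ, (v0 ≠ 0 ∨ v1 ≠ 0) ∧
      N 0 0 * v0 + N 0 1 * v1 = 0 ∧ N 1 0 * v0 + N 1 1 * v1 = 0 ∧
      ∃ j : Fin 2, v0 = N 0 j ∧ v1 = N 1 j := by
    by_cases hj : N 0 0 = 0 ∧ N 1 0 = 0
    · refine ⟨N 0 1, N 1 1, ?_, ?_, ?_, 1, rfl, rfl⟩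
      · by_contra hcon
        push Not at hcon
        apply hN0
        ext i j
        fin_cases i <;> fin_cases j <;> simp [hj.1, hj.2, hcon.1, hcon.2]
      · rw [hx]; ring
      · rw [hx, hj.1, hj.2]; ring
    · refine ⟨N 0 0, N 1 0, ?_, ?_, ?_, 0, rfl, rfl⟩
      · by_contra hcon
        push Not at hcon
        exact hj hcon
      · linarith
      · rw [hx]; ring
  refine ⟨v0, v1, hv, fun s hs => ?_⟩
  have ht := key s hs
  rw [tr2, mul2, mul2, hx] at ht
  -- w = s v is in the kernel of N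
  set w0 := s 0 0 * v0 + s 0 1 * v1 with hw0
  set w1 := s 1 0 * v0 + s 1 1 * v1 with hw1
  have hdetvw : v0 * w1 - v1 * w0 = 0 := by
    obtain ⟨j, hj0, hj1⟩ := hran
    rw [hw0, hw1, hj0, hj1]
    fin_cases j
    · simp only [Fin.zero_eta, Fin.isValue]
      by_cases h10 : N 1 0 = 0
      · have h00 : N 0 0 = 0 := by
          have : N 0 0 * N 0 0 = 0 := by rw [h10] at hy; linarith
          exact mul_self_eq_zero.mp this
        rw [h10, h00]; ring
      · have : N 1 0 * (N 0 0 * (s 1 0 * N 0 0 + s 1 1 * N 1 0)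
            - N 1 0 * (s 0 0 * N 0 0 + s 0 1 * N 1 0)) = 0 := by
          linear_combination (-N 1 0 * N 1 0) * ht + s 1 0 * N 1 0 * hy
        exact (mul_eq_zero.mp this).resolve_left h10
    · simp only [Fin.mk_one, Fin.isValue]
      rw [hx]
      by_cases h01 : N 0 1 = 0
      · have h00 : N 0 0 = 0 := by
          have : N 0 0 * N 0 0 = 0 := by rw [h01] at hy; linarith
          exact mul_self_eq_zero.mp this
        rw [h01, h00]; ring
      · have : N 0 1 * (N 0 1 * (s 1 0 * N 0 1 + s 1 1 * -N 0 0)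
            - -N 0 0 * (s 0 0 * N 0 1 + s 0 1 * -N 0 0)) = 0 := by
          linear_combination (N 0 1 * N 0 1) * ht - s 0 1 * N 0 1 * hy
        exact (mul_eq_zero.mp this).resolve_left h01
  obtain ⟨c, hc0, hc1⟩ : ∃ c : ℝ, w0 = c * v0 ∧ w1 = c * v1 := by
    rcases hv with h | h
    · refine ⟨w0 / v0, by field_simp, ?_⟩
      field_simp
      linarith
    · refine ⟨w1 / v1, ?_, by field_simp⟩
      field_simp
      linarith
  refine ⟨c, ?_, hc0, hc1⟩
  exact eig_abs (hdet s hs) (htr s hs) hv hc0 hc1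

/-! ### elliptic elements -/

/-- recurrence on the circle -/
theorem circ_rec {z : ℂ} (hz : ‖z‖ = 1) : ∃ m : ℕ → ℕ, (∀ k, 1 ≤ m k) ∧
    Tendsto (fun k => z ^ (m k)) atTop (𝓝 (star z)) := by
  have hc : IsCompact (Metric.sphere (0 : ℂ) 1) := isCompact_sphere 0 1
  have hmem : ∀ n : ℕ, z ^ n ∈ Metric.sphere (0 : ℂ) 1 := by
    intro n
    simp [hz]
  obtain ⟨w, hw, φ, hφ, hlim⟩ := hc.tendsto_subseq hmem
  have hw1 : ‖w‖ = 1 := by simpa using hw
  have hzz : z * star z = 1 := by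
    have := Complex.mul_conj z
    rw [Complex.normSq_eq_norm_sq, hz] at this
    simpa using this
  refine ⟨fun k => φ (k + 2) - φ k - 1, fun k => ?_, ?_⟩
  · have h1 : φ k < φ (k + 1) := hφ (Nat.lt_succ_self k)
    have h2 : φ (k + 1) < φ (k + 2) := hφ (Nat.lt_succ_self (k + 1))
    show 1 ≤ φ (k + 2) - φ k - 1
    omega
  · have h1 : Tendsto (fun k => z ^ φ (k + 2)) atTop (𝓝 w) :=
      (hlim.comp (tendsto_add_atTop_nat 2))
    have h2 : Tendsto (fun k => star (z ^ φ k)) atTop (𝓝 (star w)) :=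
      (Complex.continuous_conj.tendsto w).comp hlim
    have h3 := (h1.mul h2).mul_const (star z)
    have h4 : w * star w = 1 := by
      have := Complex.mul_conj w
      rw [Complex.normSq_eq_norm_sq, hw1] at this
      simpa using this
    rw [h4, one_mul] at h3
    refine h3.congr fun k => ?_
    have e1 : φ (k + 2) = (φ (k + 2) - φ k - 1) + φ k + 1 := by
      have h1 : φ k < φ (k + 1) := hφ (Nat.lt_succ_self k)
      have h2 : φ (k + 1) < φ (k + 2) := hφ (Nat.lt_succ_self (k + 1))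
      omega
    have e2 : z ^ φ k * star (z ^ φ k) = 1 := by
      rw [star_pow, ← mul_pow, hzz, one_pow]
    calc z ^ φ (k + 2) * star (z ^ φ k) * star z
        = z ^ (φ (k + 2) - φ k - 1) * z ^ φ k * z * star (z ^ φ k) * star z := by
          conv_lhs => rw [e1]
          rw [pow_add, pow_add, pow_one]
      _ = z ^ (φ (k + 2) - φ k - 1) * (z ^ φ k * star (z ^ φ k)) * (z * star z) := by ring
      _ = z ^ (φ (k + 2) - φ k - 1) := by rw [e2, hzz, mul_one, mul_one]

/-- the algebra map from the complex numbers attached to a traceless K with K^2 = -d^2 -/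
noncomputable def EE (K : M2) (d : ℝ) (z : ℂ) : M2 := z.re • (1 : M2) + (z.im / d) • K

theorem EE_mul {K : M2} {d : ℝ} (hd : d ≠ 0) (hK : K * K = (-(d * d)) • (1 : M2)) (z w : ℂ) :
    EE K d (z * w) = EE K d z * EE K d w := by
  unfold EE
  obtain ⟨a, ha⟩ : ∃ a, z.im / d = a := ⟨_, rfl⟩
  obtain ⟨b, hb⟩ : ∃ b, w.im / d = b := ⟨_, rfl⟩
  have ha' : z.im = a * d := by rw [← ha]; field_simp
  have hb' : w.im = b * d := by rw [← hb]; field_simp
  rw [ha, hb, add_mul, mul_add, mul_add]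
  simp only [smul_mul_assoc, mul_smul_comm, one_mul, mul_one, hK, Complex.mul_re,
    Complex.mul_im, ha', hb']
  have e : (z.re * (b * d) + a * d * w.re) / d = z.re * b + a * w.re := by field_simp
  rw [e]
  module

theorem EE_pow {K : M2} {d : ℝ} (hd : d ≠ 0) (hK : K * K = (-(d * d)) • (1 : M2)) (z : ℂ)
    (n : ℕ) : EE K d (z ^ n) = EE K d z ^ n := by
  induction n with
  | zero => simp [EE]
  | succ n ih => rw [pow_succ, EE_mul hd hK, ih, pow_succ]

theorem EE_cont (K : M2) (d : ℝ) : Continuous (EE K d) := by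
  unfold EE
  fun_prop



theorem adj2 (a : M2) : a.adjugate = !![a 1 1, -a 0 1; -a 1 0, a 0 0] := by
  rw [Matrix.adjugate_fin_two]

/-- data of an elliptic element -/
theorem ell_data {a : M2} (hd : a.det = 1) (ht : |a.trace| < 2) :
    ∃ (K : M2) (d : ℝ) (z : ℂ), d ≠ 0 ∧ K * K = (-(d * d)) • (1 : M2) ∧ ‖z‖ = 1 ∧
      EE K d z = a ∧ EE K d (star z) = a.adjugate := by
  obtain ⟨c, hc⟩ : ∃ c, c = a.trace / 2 := ⟨_, rfl⟩
  have hc1 : |c| < 1 := by
    rw [hc, abs_div, abs_two]
    linarith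
  have hc2 : c * c < 1 := by
    have := abs_mul_abs_self c
    nlinarith [abs_nonneg c]
  have hd0 : 0 < Real.sqrt (1 - c * c) := Real.sqrt_pos.mpr (by linarith)
  have hds : Real.sqrt (1 - c * c) * Real.sqrt (1 - c * c) = 1 - c * c :=
    Real.mul_self_sqrt (by linarith)
  obtain ⟨d, hdd⟩ : ∃ d, d = Real.sqrt (1 - c * c) := ⟨_, rfl⟩
  rw [← hdd] at hd0 hds
  rw [Matrix.det_fin_two] at hd
  rw [tr2] at hc
  refine ⟨a - c • (1 : M2), d, ⟨c, d⟩, hd0.ne', ?_, ?_, ?_, ?_⟩
  · rw [hds]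
    ext i j
    rw [mul2]
    fin_cases i <;> fin_cases j <;> simp
    · rw [hc]; linear_combination -hd
    · rw [hc]; ring
    · rw [hc]; ring
    · rw [hc]; linear_combination -hd
  · have h1 : ‖(⟨c, d⟩ : ℂ)‖ ^ 2 = 1 := by
      rw [← Complex.normSq_eq_norm_sq, Complex.normSq_mk]
      linarith
    have h2 : 0 ≤ ‖(⟨c, d⟩ : ℂ)‖ := norm_nonneg _
    nlinarith
  · unfold EE
    simp only
    rw [div_self hd0.ne', one_smul]
    abel
  · unfold EE
    have h1 : (star (⟨c, d⟩ : ℂ)).re = c := rfl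
    have h2 : (star (⟨c, d⟩ : ℂ)).im = -d := rfl
    rw [h1, h2, neg_div, div_self hd0.ne', adj2]
    ext i j
    fin_cases i <;> fin_cases j <;> simp
    · rw [hc]; ring
    · rw [hc]; ring

/-- reverse Cauchy-Schwarz in sl2 -/
theorem rev_cs {x y z x' y' z' D : ℝ} (hD0 : 0 < D) (hD : x * x + y * z = -D)
    (hD' : x' * x' + y' * z' = -D) (hzz : 0 < z * z')
    (hm : -(2 * x * x' + y * z' + z * y') ≤ 2 * D) : x' = x ∧ y' = y ∧ z' = z := by
  have hz0 : z ≠ 0 := by
    intro h0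
    rw [h0, zero_mul] at hzz
    exact lt_irrefl _ hzz
  have hsq : (x * z' - x' * z) ^ 2 + D * (z' - z) ^ 2 ≤ 0 := by
    have e : (x * z' - x' * z) ^ 2 + D * (z' - z) ^ 2 =
        (-(2 * x * x' + y * z' + z * y') - 2 * D) * (z * z') := by
      linear_combination (z' * z') * hD + (z * z) * hD'
    rw [e]
    exact mul_nonpos_of_nonpos_of_nonneg (by linarith) hzz.le
  have a1 := sq_nonneg (x * z' - x' * z)
  have a2 := mul_nonneg hD0.le (sq_nonneg (z' - z))
  have hz1 : z' = z := by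
    have h1 : D * (z' - z) ^ 2 = 0 := by linarith
    have h2 := (mul_eq_zero.mp h1).resolve_left hD0.ne'
    have h3 := pow_eq_zero_iff (two_ne_zero) |>.mp h2
    linarith
  have hx1 : x' = x := by
    have h1 : (x * z' - x' * z) ^ 2 = 0 := by linarith
    have h2 := pow_eq_zero_iff (two_ne_zero) |>.mp h1
    rw [hz1] at h2
    have h3 : (x - x') * z = 0 := by linarith
    have h4 := (mul_eq_zero.mp h3).resolve_right hz0
    linarith
  refine ⟨hx1, ?_, hz1⟩
  rw [hz1, hx1] at hD'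
  have h1 : (y' - y) * z = 0 := by linarith
  have h2 := (mul_eq_zero.mp h1).resolve_right hz0
  linarith

theorem zz_pos {x y z p q r s D : ℝ} (hD0 : 0 < D) (hD : x * x + y * z = -D)
    (hb : p * s - q * r = 1) : 0 < z * (2 * r * s * x + s * s * z - r * r * y) := by
  have e : z * (2 * r * s * x + s * s * z - r * r * y)
      = (z * s + x * r) * (z * s + x * r) + D * (r * r) := by
    linear_combination (-(r * r)) * hD
  rw [e]
  have a1 := mul_self_nonneg (z * s + x * r)
  by_cases hr0 : r = 0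
  · have hs0 : s ≠ 0 := by
      intro h0
      rw [hr0, h0] at hb
      simp at hb
    have hz0 : z ≠ 0 := by
      intro h0
      rw [h0, mul_zero, add_zero] at hD
      have := mul_self_nonneg x
      linarith
    rw [hr0, mul_zero, mul_zero, mul_zero, add_zero, add_zero]
    exact mul_self_pos.mpr (mul_ne_zero hz0 hs0)
  · have := mul_pos hD0 (mul_self_pos.mpr hr0)
    linarith

theorem ctr_real {x y z c p q r s : ℝ} (ha : (c + x) * (c - x) - y * z = 1)
    (hb : p * s - q * r = 1) (hc1 : c * c < 1)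
    (h : 2 * c * c * (p * s - q * r) - (2 * x * (x * (p * s + q * r) + q * s * z - p * r * y)
      + y * (2 * r * s * x + s * s * z - r * r * y)
      + z * (-2 * p * q * x - q * q * z + p * p * y)) ≤ 2) :
    x * (p * s + q * r) + q * s * z - p * r * y = x ∧
      -2 * p * q * x - q * q * z + p * p * y = y ∧
      2 * r * s * x + s * s * z - r * r * y = z := by
  have hD0 : 0 < 1 - c * c := by linarith
  have hD : x * x + y * z = -(1 - c * c) := by linarith
  have hD' : (x * (p * s + q * r) + q * s * z - p * r * y) *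
      (x * (p * s + q * r) + q * s * z - p * r * y) +
      (-2 * p * q * x - q * q * z + p * p * y) *
      (2 * r * s * x + s * s * z - r * r * y) = -(1 - c * c) := by
    have e : (x * (p * s + q * r) + q * s * z - p * r * y) *
      (x * (p * s + q * r) + q * s * z - p * r * y) +
      (-2 * p * q * x - q * q * z + p * p * y) *
      (2 * r * s * x + s * s * z - r * r * y)
      = (x * x + y * z) * ((p * s - q * r) * (p * s - q * r)) := by ring
    rw [e, hb, hD]; ring
  refine rev_cs hD0 hD hD' (zz_pos hD0 hD hb) ?_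
  rw [hb] at h
  linarith

/-- the algebraic heart: an elliptic a and any b with commutator of trace at most two commute -/
theorem comm_of_trace {a b : M2} (ha : a.det = 1) (hb : b.det = 1) (ht : |a.trace| < 2)
    (h : (a * b * a.adjugate * b.adjugate).trace ≤ 2) : a * b = b * a := by
  rw [Matrix.det_fin_two] at ha hb
  rw [tr2] at ht
  rw [tr2] at h
  simp only [mul2, adj2] at h
  simp at h
  obtain ⟨x, hx⟩ : ∃ x, x = (a 0 0 - a 1 1) / 2 := ⟨_, rfl⟩
  obtain ⟨c, hc⟩ : ∃ c, c = (a 0 0 + a 1 1) / 2 := ⟨_, rfl⟩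
  have h00 : a 0 0 = c + x := by rw [hx, hc]; ring
  have h11 : a 1 1 = c - x := by rw [hx, hc]; ring
  have hc1 : c * c < 1 := by
    have h1 : |c| < 1 := by
      have : a 0 0 + a 1 1 = 2 * c := by rw [h00, h11]; ring
      rw [this, abs_mul, abs_two] at ht
      linarith
    have h2 := abs_mul_abs_self c
    have h3 : |c| * |c| < 1 * 1 := mul_self_lt_mul_self (abs_nonneg c) h1
    linarith
  rw [h00, h11] at ha
  rw [h00, h11] at h
  obtain ⟨e1, e2, e3⟩ := ctr_real ha hb hc1 (le_trans (le_of_eq (by ring)) h)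
  clear h ha ht hc1 hx hc
  ext i j
  rw [mul2, mul2]
  fin_cases i <;> fin_cases j <;> simp [h00, h11]
  · linear_combination (-b 0 0) * e1 + (-b 1 0) * e2 + (b 0 0 * x + b 0 1 * a 1 0) * hb
  · linear_combination (-b 0 1) * e1 + (-b 1 1) * e2 + (b 0 0 * a 0 1 - b 0 1 * x) * hb
  · linear_combination (-b 0 0) * e3 + (b 1 0) * e1 + (b 1 0 * x + b 1 1 * a 1 0) * hb
  · linear_combination (-b 0 1) * e3 + (b 1 1) * e1 + (b 1 0 * a 0 1 - b 1 1 * x) * hb

theorem pow_mem' {S : Set M2} (hmul : ∀ a ∈ S, ∀ b ∈ S, a * b ∈ S) {c : M2} (hc : c ∈ S)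
    (k : ℕ) (hk : 1 ≤ k) : c ^ k ∈ S := by
  induction k, hk using Nat.le_induction with
  | base => simpa using hc
  | succ k _ ih =>
    rw [pow_succ]
    exact hmul _ ih _ hc

/-- two elliptic elements of a trace bounded semigroup commute -/
theorem ell_comm {S : Set M2} (hmul : ∀ a ∈ S, ∀ b ∈ S, a * b ∈ S)
    (hdet : ∀ a ∈ S, a.det = 1) (htr : ∀ a ∈ S, |a.trace| ≤ 2) {a b : M2}
    (ha : a ∈ S) (hb : b ∈ S) (hta : |a.trace| < 2) (htb : |b.trace| < 2) :
    a * b = b * a := by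
  refine comm_of_trace (hdet a ha) (hdet b hb) hta ?_
  obtain ⟨K, d, z, hd0, hK, hz, e1, e2⟩ := ell_data (hdet a ha) hta
  obtain ⟨K', d', z', hd0', hK', hz', e1', e2'⟩ := ell_data (hdet b hb) htb
  obtain ⟨m, hm, hml⟩ := circ_rec hz
  obtain ⟨n, hn, hnl⟩ := circ_rec hz'
  have hlim1 : Tendsto (fun k => EE K d (z ^ m k)) atTop (𝓝 (EE K d (star z))) :=
    ((EE_cont K d).tendsto (star z)).comp hml
  have hlim2 : Tendsto (fun k => EE K' d' (z' ^ n k)) atTop (𝓝 (EE K' d' (star z'))) :=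
    ((EE_cont K' d').tendsto (star z')).comp hnl
  have hlim3 : Tendsto (fun k => a * b * EE K d (z ^ m k) * EE K' d' (z' ^ n k)) atTop
      (𝓝 (a * b * EE K d (star z) * EE K' d' (star z'))) :=
    (hlim1.const_mul (a * b)).mul hlim2
  have htc : Continuous (fun c : M2 => c.trace) := by
    exact Continuous.matrix_trace continuous_id
  have hlim4 : Tendsto (fun k => (a * b * EE K d (z ^ m k) * EE K' d' (z' ^ n k)).trace) atTop
      (𝓝 ((a * b * EE K d (star z) * EE K' d' (star z')).trace)) :=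
    (htc.tendsto _).comp hlim3
  rw [← e2, ← e2']
  refine le_of_tendsto' hlim4 fun k => ?_
  have h1 : EE K d (z ^ m k) = a ^ m k := by rw [EE_pow hd0 hK, e1]
  have h2 : EE K' d' (z' ^ n k) = b ^ n k := by rw [EE_pow hd0' hK', e1']
  rw [h1, h2]
  have h3 : a ^ m k ∈ S := pow_mem' hmul ha _ (hm k)
  have h4 : b ^ n k ∈ S := pow_mem' hmul hb _ (hn k)
  have h5 : a * b ∈ S := hmul _ ha _ hb
  have h6 : a * b * a ^ m k ∈ S := hmul _ h5 _ h3
  have h7 : a * b * a ^ m k * b ^ n k ∈ S := hmul _ h6 _ h4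
  exact le_trans (le_abs_self _) (htr _ h7)

/-- the symplectic matrix of the plane -/
def Jm : M2 := !![0, 1; -1, 0]

theorem Jm_inv {b : M2} (hb : b.det = 1) : bᵀ * Jm * b = Jm := by
  rw [Matrix.det_fin_two] at hb
  ext i j
  rw [mul2, mul2, mul2]
  fin_cases i <;> fin_cases j <;> simp [Jm, Matrix.transpose_apply]
  · ring
  · linarith
  · linarith
  · ring

/-- a matrix of determinant one commuting with an elliptic a preserves its form -/
theorem form_inv {a : M2} (ha : a.det = 1) (hta : |a.trace| < 2) :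
    ∃ P : M2, P.det ≠ 0 ∧ ∀ b : M2, b.det = 1 → a * b = b * a →
      (P * b)ᵀ * (P * b) = Pᵀ * P := by
  obtain ⟨x, hx⟩ : ∃ x, x = (a 0 0 - a 1 1) / 2 := ⟨_, rfl⟩
  obtain ⟨c, hc⟩ : ∃ c, c = (a 0 0 + a 1 1) / 2 := ⟨_, rfl⟩
  have h00 : a 0 0 = c + x := by rw [hx, hc]; ring
  have h11 : a 1 1 = c - x := by rw [hx, hc]; ring
  have hc1 : c * c < 1 := by
    have h1 : |c| < 1 := by
      have : a.trace = 2 * c := by rw [tr2, h00, h11]; ring
      rw [this, abs_mul, abs_two] at hta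
      linarith
    have h2 := abs_mul_abs_self c
    have h3 : |c| * |c| < 1 * 1 := mul_self_lt_mul_self (abs_nonneg c) h1
    linarith
  have hd0 : 0 < Real.sqrt (1 - c * c) := Real.sqrt_pos.mpr (by linarith)
  have hds : Real.sqrt (1 - c * c) * Real.sqrt (1 - c * c) = 1 - c * c :=
    Real.mul_self_sqrt (by linarith)
  obtain ⟨d, hdd⟩ : ∃ d, d = Real.sqrt (1 - c * c) := ⟨_, rfl⟩
  rw [← hdd] at hd0 hds
  have ha2 := ha
  rw [Matrix.det_fin_two, h00, h11] at ha2
  have hD : x * x + a 0 1 * a 1 0 = -(d * d) := by rw [hds]; linarith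
  have hz0 : a 1 0 ≠ 0 := by
    intro h0
    rw [h0, mul_zero, add_zero] at hD
    have := mul_self_nonneg x
    have := mul_pos hd0 hd0
    linarith
  let P : M2 := !![a 1 0, -x; 0, d]
  have hP : Pᵀ * P = a 1 0 • (Jm * (a - c • (1 : M2))) := by
    ext i j
    rw [mul2, Matrix.smul_apply, mul2]
    fin_cases i <;> fin_cases j <;>
      simp [P, Jm, Matrix.transpose_apply, h00, h11]
    · ring
    · linarith
  refine ⟨P, ?_, fun b hb hab => ?_⟩
  · rw [Matrix.det_fin_two]
    simp [P, hz0, hd0.ne']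
  · have hJ := Jm_inv hb
    have hcomm : (a - c • (1 : M2)) * b = b * (a - c • (1 : M2)) := by
      rw [sub_mul, mul_sub, hab]
      simp
    calc (P * b)ᵀ * (P * b) = bᵀ * (Pᵀ * P) * b := by
          rw [Matrix.transpose_mul]; simp only [mul_assoc]
      _ = a 1 0 • (bᵀ * Jm * ((a - c • (1 : M2)) * b)) := by
          rw [hP]
          simp only [mul_smul_comm, smul_mul_assoc, mul_assoc]
      _ = a 1 0 • ((bᵀ * Jm * b) * (a - c • (1 : M2))) := by
          rw [hcomm]; simp only [mul_assoc]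
      _ = Pᵀ * P := by rw [hJ, hP]

/-- SL2 LEMMA (2.4): a semigroup in SL2(R) with traces at most two in modulus is conjugate
into the rotations (preserves a positive definite form), or preserves a line, with all
eigenvalues on it of modulus one. -/
theorem sl2_alt {S : Set M2} (hmul : ∀ a ∈ S, ∀ b ∈ S, a * b ∈ S)
    (hdet : ∀ a ∈ S, a.det = 1) (htr : ∀ a ∈ S, |a.trace| ≤ 2) :
    (∃ P : M2, P.det ≠ 0 ∧ ∀ s ∈ S, (P * s)ᵀ * (P * s) = Pᵀ * P) ∨
    (∃ v0 v1 : ℝ, (v0 ≠ 0 ∨ v1 ≠ 0) ∧ ∀ s ∈ S, ∃ c : ℝ, |c| = 1 ∧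
      s 0 0 * v0 + s 0 1 * v1 = c * v0 ∧ s 1 0 * v0 + s 1 1 * v1 = c * v1) := by
  by_cases hpar : ∃ p ∈ S, |p.trace| = 2 ∧ p ≠ 1 ∧ p ≠ -1
  · obtain ⟨p, hp, h2, hp1, hp2⟩ := hpar
    exact Or.inr (par_case hmul hdet htr hp h2 hp1 hp2)
  push Not at hpar
  left
  by_cases hell : ∃ a ∈ S, |a.trace| < 2
  · obtain ⟨a, ha, hta⟩ := hell
    obtain ⟨P, hP0, hP⟩ := form_inv (hdet a ha) hta
    refine ⟨P, hP0, fun s hs => hP s (hdet s hs) ?_⟩
    rcases lt_or_eq_of_le (htr s hs) with h | h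
    · exact ell_comm hmul hdet htr ha hs hta h
    · by_cases h1 : s = 1
      · rw [h1]; simp
      · rw [hpar s hs h h1]; simp
  · push Not at hell
    refine ⟨1, by simp, fun s hs => ?_⟩
    have h : |s.trace| = 2 := le_antisymm (htr s hs) (hell s hs)
    by_cases h1 : s = 1
    · rw [h1]; simp
    · rw [hpar s hs h h1]; simp

/-- passage from an invariant line to the invariant linear form -/
theorem dual_line {s : M2} (hd : s.det = 1) {v0 v1 c : ℝ} (hc : |c| = 1)
    (h0 : s 0 0 * v0 + s 0 1 * v1 = c * v0) (h1 : s 1 0 * v0 + s 1 1 * v1 = c * v1) :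
    (-v1) * s 0 0 + v0 * s 1 0 = c * (-v1) ∧ (-v1) * s 0 1 + v0 * s 1 1 = c * v0 := by
  rw [Matrix.det_fin_two] at hd
  have hcc : c * c = 1 := by rw [← abs_mul_abs_self, hc]; norm_num
  have hc0 : c ≠ 0 := by
    intro h
    rw [h] at hcc
    norm_num at hcc
  constructor
  · have : c * ((-v1) * s 0 0 + v0 * s 1 0 - c * (-v1)) = 0 := by
      linear_combination (-s 1 0) * h0 + s 0 0 * h1 - v1 * hd + v1 * hcc
    linarith [(mul_eq_zero.mp this).resolve_left hc0]
  · have : c * ((-v1) * s 0 1 + v0 * s 1 1 - c * v0) = 0 := by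
      linear_combination (-s 1 1) * h0 + s 0 1 * h1 + v0 * hd - v0 * hcc
    linarith [(mul_eq_zero.mp this).resolve_left hc0]

end Vale.Agent.P207.H575.T3
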