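import Vale.Agent.P207.H575.T3.Def
import Vale.Agent.P207.N3.H545.LemR

/-!
Line N3 of P207, package P6: derivatives of functions on a leaf seen in the charts; bounds on
compact sets; Lemma R for functions on a leaf.
-/

namespace Vale.Agent.P207.N3

open Set Filter Topology Metric MeasureTheory
open scoped ContDiff Nat
open Vale.Agent.P207.N3.H545 (CkB exists_lemma_R)

set_option linter.unusedSectionVars false

variable {Γ X B : Type} [Group Γ] [MetricSpace X] [ProperSpace X] [MulAction Γ X]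
  [IsIsometricSMul Γ X] [TopologicalSpace B] [CompactSpace B] [T2Space B] [MulAction Γ B]
  [ContinuousConstSMul Γ B]

theorem norm_comp_le_open {V : Type} [NormedAddCommGroup V] [NormedSpace ℝ V]
    {g : E2 → V} {h : E2 → E2} {s t : Set E2} (hs : IsOpen s)
    (ht : IsOpen t) (hg : ContDiffOn ℝ ∞ g t) (hh : ContDiffOn ℝ ∞ h s) (hst : MapsTo h s t)
    {x : E2} (hx : x ∈ s) (k : ℕ) {C D : ℝ} (hD1 : 1 ≤ D)
    (hC : ∀ i ≤ k, ‖iteratedFDeriv ℝ i g (h x)‖ ≤ C)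
    (hD : ∀ i, 1 ≤ i → i ≤ k → ‖iteratedFDeriv ℝ i h x‖ ≤ D) {F : E2 → V}
    (hF : ∀ y ∈ s, F y = g (h y)) : ‖iteratedFDeriv ℝ k F x‖ ≤ k ! * C * D ^ k := by
  have e1 : iteratedFDeriv ℝ k F x = iteratedFDerivWithin ℝ k (g ∘ h) s x := by
    rw [← iteratedFDerivWithin_of_isOpen k hs hx]
    exact iteratedFDerivWithin_congr (fun y hy => hF y hy) hx k
  rw [e1]
  refine norm_iteratedFDerivWithin_comp_le hg hh (by exact_mod_cast le_top) ht.uniqueDiffOn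
    hs.uniqueDiffOn hst hx (fun i hi => ?_) (fun i hi1 hi => ?_)
  · rw [iteratedFDerivWithin_of_isOpen i ht (hst hx)]
    exact hC i hi
  · rw [iteratedFDerivWithin_of_isOpen i hs hx]
    refine (hD i hi1 hi).trans ?_
    calc D = D ^ 1 := (pow_one D).symm
      _ ≤ D ^ i := pow_le_pow_right₀ hD1 hi1

namespace Leaf

variable (L : Leaf Γ X B)

theorem isOpen_img3 (y : X) : IsOpen (L.e y '' ball 0 3) := by
  have h := L.e_open.preimage (f := fun b : B => (y, b)) (by fun_prop)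
  exact h

theorem isOpen_dm (x y : X) : IsOpen (L.dm x y) :=
  ((L.e_cont_x x).mono ball_subset_closedBall).isOpen_inter_preimage isOpen_ball (L.isOpen_img3 y)

theorem tau_mem {x y : X} {u : E2} (hu : u ∈ L.dm x y) : L.τ x y u ∈ ball (0 : E2) 3 := by
  rw [L.tau_eq]
  exact L.inv_mem_ball le_rfl hu.2

theorem e_tau {x y : X} {u : E2} (hu : u ∈ L.dm x y) : L.e y (L.τ x y u) = L.e x u := by
  rw [L.tau_eq]
  exact L.e_inv (image_mono ball_subset_closedBall hu.2)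

theorem dm_self (x : X) : L.dm x x = ball 0 3 := by
  ext u
  exact ⟨fun h => h.1, fun h => ⟨h, u, h, rfl⟩⟩

theorem tau_self (x : X) {u : E2} (hu : u ∈ ball (0 : E2) 3) : L.τ x x u = u := by
  rw [L.tau_eq, L.inv_e (ball_subset_closedBall hu)]

theorem dm_engulf (x : X) {t : ℝ} (ht : L.t1 ≤ t) : L.dm (L.φ t x) x = ball 0 3 := by
  ext u
  refine ⟨fun h => h.1, fun h => ⟨h, ?_⟩⟩
  exact image_mono (ball_subset_ball (by norm_num))
    (L.engulf x t ht ⟨u, ball_subset_closedBall h, rfl⟩)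

theorem tau_engulf (x : X) {t : ℝ} (ht : L.t1 ≤ t) {u : E2} (hu : u ∈ ball (0 : E2) 3) :
    L.τ (L.φ t x) x u ∈ ball (0 : E2) 1 := by
  rw [L.tau_eq]
  exact L.inv_mem_ball (by norm_num) (L.engulf x t ht ⟨u, ball_subset_closedBall hu, rfl⟩)

variable {V : Type} [NormedAddCommGroup V] [NormedSpace ℝ V]

/-- bounds of the derivatives of a smooth function on a leaf, seen in charts of a compact set -/
theorem init_bound {ξ : B} {f : B → V} (hf : L.SmoothOn ξ f) {K : Set X} (hK : IsCompact K)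
    (hKξ : ∀ x ∈ K, L.em x = ξ) {r : ℝ} (hr : r < 3) (k : ℕ) :
    ∃ C : ℝ, ∀ x ∈ K, ∀ u ∈ closedBall (0 : E2) r,
      ‖iteratedFDeriv ℝ k (fun u => f (L.e x u)) u‖ ≤ C := by
  by_contra hcon
  push Not at hcon
  choose x hx u hu hbad using fun n : ℕ => hcon n
  obtain ⟨⟨x₀, u₀⟩, ⟨hx₀, hu₀⟩, ψ, hψ, hlim⟩ :=
    (hK.prod (isCompact_closedBall (0 : E2) r)).tendsto_subseq
      (x := fun n => (x n, u n)) (fun n => ⟨hx n, hu n⟩)
  have hu₀3 : u₀ ∈ ball (0 : E2) 3 := closedBall_subset_ball hr hu₀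
  have hlx : Tendsto (fun n => x (ψ n)) atTop (𝓝 x₀) := (continuous_fst.tendsto _).comp hlim
  have hlu : Tendsto (fun n => u (ψ n)) atTop (𝓝 u₀) := (continuous_snd.tendsto _).comp hlim
  have hle : Tendsto (fun n => L.e (x (ψ n)) (u (ψ n))) atTop (𝓝 (L.e x₀ u₀)) := by
    refine (L.e_cont (x₀, u₀) ⟨trivial, ball_subset_closedBall hu₀3⟩).tendsto.comp
      (tendsto_nhdsWithin_iff.mpr ⟨hlim, Eventually.of_forall fun n => ⟨trivial, ?_⟩⟩)
    exact closedBall_subset_closedBall hr.le (hu _)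
  have hdm : ∀ᶠ n in atTop, u (ψ n) ∈ L.dm (x (ψ n)) x₀ := by
    filter_upwards [hle.eventually ((L.isOpen_img3 x₀).mem_nhds ⟨u₀, hu₀3, rfl⟩)] with n hn
    exact ⟨closedBall_subset_ball hr (hu _), hn⟩
  have hem : ∀ n, L.em (x (ψ n)) = L.em x₀ := fun n => by rw [hKξ _ (hx _), hKξ _ hx₀]
  -- convergence of the transition maps
  have hτ : ∀ i : ℕ, Tendsto (fun n => iteratedFDeriv ℝ i (L.τ (x (ψ n)) x₀) (u (ψ n))) atTop
      (𝓝 (iteratedFDeriv ℝ i (L.τ x₀ x₀) u₀)) := by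
    intro i
    have h1 := L.tau_cont i ((x₀, x₀), u₀) ⟨rfl, by
      show u₀ ∈ L.dm x₀ x₀
      rw [L.dm_self]; exact hu₀3⟩
    have h2 : Tendsto (fun n => ((x (ψ n), x₀), u (ψ n))) atTop
        (𝓝[{p : (X × X) × E2 | L.em p.1.1 = L.em p.1.2 ∧ p.2 ∈ dom L.e p.1.1 p.1.2}]
          ((x₀, x₀), u₀)) := by
      refine tendsto_nhdsWithin_iff.mpr ⟨(hlx.prodMk_nhds tendsto_const_nhds).prodMk_nhds hlu, ?_⟩
      filter_upwards [hdm] with n hn
      exact ⟨hem n, hn⟩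
    exact h1.tendsto.comp h2
  have hτ0 : Tendsto (fun n => L.τ (x (ψ n)) x₀ (u (ψ n))) atTop (𝓝 u₀) :=
    (L.inv_tendsto (tendsto_const_nhds (x := x₀)) hle hu₀3).2
  -- bounds for the transition maps
  obtain ⟨D, hD1, hD⟩ : ∃ D : ℝ, 1 ≤ D ∧ ∀ᶠ n in atTop, ∀ i, i ≤ k →
      ‖iteratedFDeriv ℝ i (L.τ (x (ψ n)) x₀) (u (ψ n))‖ ≤ D := by
    have h1 : ∀ i : ℕ, ∀ᶠ n in atTop, ‖iteratedFDeriv ℝ i (L.τ (x (ψ n)) x₀) (u (ψ n))‖ ≤
        ‖iteratedFDeriv ℝ i (L.τ x₀ x₀) u₀‖ + 1 := fun i =>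
      ((hτ i).norm.eventually_lt_const (lt_add_one _)).mono fun n hn => hn.le
    refine ⟨1 + ∑ i ∈ Finset.range (k + 1), (‖iteratedFDeriv ℝ i (L.τ x₀ x₀) u₀‖ + 1), ?_, ?_⟩
    · have : 0 ≤ ∑ i ∈ Finset.range (k + 1), (‖iteratedFDeriv ℝ i (L.τ x₀ x₀) u₀‖ + 1) :=
        Finset.sum_nonneg fun i _ => by positivity
      linarith
    · have h2 : ∀ᶠ n in atTop, ∀ i ∈ Finset.range (k + 1),
          ‖iteratedFDeriv ℝ i (L.τ (x (ψ n)) x₀) (u (ψ n))‖ ≤
            ‖iteratedFDeriv ℝ i (L.τ x₀ x₀) u₀‖ + 1 :=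
        (Filter.eventually_all_finset _).mpr fun i _ => h1 i
      filter_upwards [h2] with n hn i hi
      have h3 := hn i (Finset.mem_range.mpr (by omega))
      have h4 : ‖iteratedFDeriv ℝ i (L.τ x₀ x₀) u₀‖ + 1 ≤
          ∑ i ∈ Finset.range (k + 1), (‖iteratedFDeriv ℝ i (L.τ x₀ x₀) u₀‖ + 1) :=
        Finset.single_le_sum (f := fun i => ‖iteratedFDeriv ℝ i (L.τ x₀ x₀) u₀‖ + 1)
          (fun i _ => by positivity) (Finset.mem_range.mpr (by omega))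
      linarith
  -- bounds for f o e x₀
  have hsm : ContDiffOn ℝ ∞ (fun u => f (L.e x₀ u)) (ball 0 3) := hf x₀ (hKξ _ hx₀)
  obtain ⟨C, hC⟩ : ∃ C : ℝ, ∀ᶠ n in atTop, ∀ i, i ≤ k →
      ‖iteratedFDeriv ℝ i (fun u => f (L.e x₀ u)) (L.τ (x (ψ n)) x₀ (u (ψ n)))‖ ≤ C := by
    have hc : ∀ i : ℕ, ContinuousAt (iteratedFDeriv ℝ i (fun u => f (L.e x₀ u))) u₀ := by
      intro i
      have h1 : ContDiffAt ℝ ∞ (fun u => f (L.e x₀ u)) u₀ :=
        hsm.contDiffAt (isOpen_ball.mem_nhds hu₀3)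
      have h2 := h1.iteratedFDeriv_right (m := 0) (i := i) (by exact_mod_cast le_top)
      exact h2.continuousAt
    have h1 : ∀ i : ℕ, ∀ᶠ n in atTop,
        ‖iteratedFDeriv ℝ i (fun u => f (L.e x₀ u)) (L.τ (x (ψ n)) x₀ (u (ψ n)))‖ ≤
        ‖iteratedFDeriv ℝ i (fun u => f (L.e x₀ u)) u₀‖ + 1 := fun i =>
      (((hc i).tendsto.comp hτ0).norm.eventually_lt_const (lt_add_one _)).mono fun n hn => hn.le
    refine ⟨∑ i ∈ Finset.range (k + 1),
      (‖iteratedFDeriv ℝ i (fun u => f (L.e x₀ u)) u₀‖ + 1), ?_⟩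
    have h2 : ∀ᶠ n in atTop, ∀ i ∈ Finset.range (k + 1),
        ‖iteratedFDeriv ℝ i (fun u => f (L.e x₀ u)) (L.τ (x (ψ n)) x₀ (u (ψ n)))‖ ≤
        ‖iteratedFDeriv ℝ i (fun u => f (L.e x₀ u)) u₀‖ + 1 :=
      (Filter.eventually_all_finset _).mpr fun i _ => h1 i
    filter_upwards [h2] with n hn i hi
    exact (hn i (Finset.mem_range.mpr (by omega))).trans
      (Finset.single_le_sum (f := fun i =>
        ‖iteratedFDeriv ℝ i (fun u => f (L.e x₀ u)) u₀‖ + 1)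
        (fun i _ => by positivity) (Finset.mem_range.mpr (by omega)))
  -- conclusion
  have hfin : ∀ᶠ n in atTop, ‖iteratedFDeriv ℝ k (fun u => f (L.e (x (ψ n)) u)) (u (ψ n))‖ ≤
      k ! * C * D ^ k := by
    filter_upwards [hdm, hD, hC] with n h1 h2 h3
    refine norm_comp_le_open (L.isOpen_dm (x (ψ n)) x₀) isOpen_ball hsm
      (L.tau_smooth _ _ (hem n)) (fun v hv => L.tau_mem hv) h1 k hD1 h3
      (fun i _ hi => h2 i hi) (fun v hv => ?_)
    exact congrArg f (L.e_tau hv).symm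
  obtain ⟨n, hn1, hn2⟩ := (hfin.and ((tendsto_natCast_atTop_atTop (R := ℝ)).comp
    hψ.tendsto_atTop |>.eventually_ge_atTop (k ! * C * D ^ k))).exists
  exact absurd (hbad (ψ n)) (not_lt.mpr (hn1.trans hn2))

end Leaf

end Vale.Agent.P207.N3
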