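import Vale.Agent.P207.N3.Spec

/-!
Line N3 of P207: topology of the interface Leaf (inverse charts, compactness modulo the group).
-/

namespace Vale.Agent.P207.N3

open Set Filter Topology Metric MeasureTheory

set_option linter.unusedSectionVars false

variable {Γ X B : Type} [Group Γ] [MetricSpace X] [ProperSpace X] [MulAction Γ X]
  [IsIsometricSMul Γ X] [TopologicalSpace B] [CompactSpace B] [T2Space B] [MulAction Γ B]
  [ContinuousConstSMul Γ B]

namespace Leaf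

variable (L : Leaf Γ X B)

/-- the inverse chart -/
noncomputable def inv (x : X) (b : B) : E2 := Function.invFunOn (L.e x) (closedBall (0 : E2) 3) b

theorem inv_mem {x : X} {b : B} (h : b ∈ L.e x '' closedBall 0 3) :
    L.inv x b ∈ closedBall (0 : E2) 3 := Function.invFunOn_mem h

theorem e_inv {x : X} {b : B} (h : b ∈ L.e x '' closedBall 0 3) : L.e x (L.inv x b) = b :=
  Function.invFunOn_eq h

theorem inv_e {x : X} {u : E2} (h : u ∈ closedBall (0 : E2) 3) : L.inv x (L.e x u) = u := by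
  have h1 : L.e x u ∈ L.e x '' closedBall 0 3 := ⟨u, h, rfl⟩
  exact L.e_inj x (L.inv_mem h1) h (L.e_inv h1)

theorem inv_mem_ball {x : X} {b : B} {r : ℝ} (hr : r ≤ 3) (h : b ∈ L.e x '' ball 0 r) :
    L.inv x b ∈ ball (0 : E2) r := by
  obtain ⟨u, hu, rfl⟩ := h
  rw [L.inv_e (ball_subset_closedBall (ball_subset_ball hr hu))]
  exact hu

theorem tau_eq (x y : X) (u : E2) : L.τ x y u = L.inv y (L.e x u) := rfl

theorem inv_smul (g : Γ) {x : X} {b : B} (h : b ∈ L.e x '' closedBall 0 3) :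
    L.inv (g • x) (g • b) = L.inv x b := by
  obtain ⟨u, hu, rfl⟩ := h
  rw [← L.e_smul g x u hu, L.inv_e hu, L.inv_e hu]

theorem ep_φ (t : ℝ) (x : X) : L.ep (L.φ t x) = L.ep x := by
  rw [L.ep_flip, L.flip_φ, L.em_φ, ← L.ep_flip]

theorem ep_rot (a : O2) (x : X) : L.ep (L.rot a x) = L.ep x := by
  rw [L.ep_flip, L.flip_rot, L.em_rot, ← L.ep_flip]

theorem ep_smul (g : Γ) (x : X) : L.ep (g • x) = g • L.ep x := by
  rw [L.ep_flip, L.flip_smul, L.em_smul, ← L.ep_flip]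

theorem ep_of_flip (x : X) : L.ep (L.flip x) = L.em x := by
  rw [L.ep_flip, L.flip_flip]

theorem ep_cont : Continuous L.ep := by
  have h : L.ep = fun x => L.em (L.flip x) := funext L.ep_flip
  rw [h]
  exact L.em_cont.comp L.flip_cont

theorem φ_neg (t : ℝ) (x : X) : L.φ (-t) (L.φ t x) = x := by
  rw [← L.φ_add, neg_add_cancel, L.φ_zero]

theorem φ_cont' (t : ℝ) : Continuous (L.φ t) :=
  L.φ_cont.comp (Continuous.prodMk continuous_const continuous_id)

theorem e_cont_x (x : X) : ContinuousOn (L.e x) (closedBall 0 3) :=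
  L.e_cont.comp (f := fun u : E2 => (x, u)) (by fun_prop) (fun u hu => ⟨trivial, hu⟩)

/-- (T1) inverse charts depend continuously on the frame and the point -/
theorem inv_tendsto {ι : Type*} {l : Filter ι} {x : ι → X} {b : ι → B} {x₀ : X} {u₀ : E2}
    (hx : Tendsto x l (𝓝 x₀)) (hb : Tendsto b l (𝓝 (L.e x₀ u₀))) (hu₀ : u₀ ∈ ball (0 : E2) 3) :
    (∀ᶠ i in l, b i ∈ L.e (x i) '' ball 0 3) ∧
      Tendsto (fun i => L.inv (x i) (b i)) l (𝓝 u₀) := by
  have hev : ∀ᶠ i in l, b i ∈ L.e (x i) '' ball 0 3 := by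
    have h1 : Tendsto (fun i => (x i, b i)) l (𝓝 (x₀, L.e x₀ u₀)) := hx.prodMk_nhds hb
    exact h1.eventually (L.e_open.mem_nhds (show L.e x₀ u₀ ∈ L.e x₀ '' ball 0 3 from
      ⟨u₀, hu₀, rfl⟩))
  refine ⟨hev, ?_⟩
  rw [tendsto_iff_ultrafilter]
  intro g hg
  have hev' : ∀ᶠ i in (g : Filter ι), b i ∈ L.e (x i) '' closedBall 0 3 := by
    filter_upwards [hg hev] with i hi
    exact image_mono ball_subset_closedBall hi
  have hmem : ∀ᶠ i in (g : Filter ι), L.inv (x i) (b i) ∈ closedBall (0 : E2) 3 := by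
    filter_upwards [hev'] with i hi
    exact L.inv_mem hi
  have hK : IsCompact (closedBall (0 : E2) 3) := isCompact_closedBall 0 3
  obtain ⟨u, hu, hlim⟩ := hK.ultrafilter_le_nhds (g.map fun i => L.inv (x i) (b i))
    (le_principal_iff.mpr hmem)
  have hlim' : Tendsto (fun i => L.inv (x i) (b i)) (g : Filter ι) (𝓝 u) := hlim
  have h2 : Tendsto (fun i => (x i, L.inv (x i) (b i))) (g : Filter ι)
      (𝓝[univ ×ˢ closedBall 0 3] (x₀, u)) := by
    refine tendsto_nhdsWithin_iff.mpr ⟨(hx.mono_left hg).prodMk_nhds hlim', ?_⟩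
    filter_upwards [hmem] with i hi
    exact ⟨trivial, hi⟩
  have h3 : Tendsto (fun i => L.e (x i) (L.inv (x i) (b i))) (g : Filter ι)
      (𝓝 (L.e x₀ u)) := (L.e_cont (x₀, u) ⟨trivial, hu⟩).tendsto.comp h2
  have h4 : Tendsto b (g : Filter ι) (𝓝 (L.e x₀ u)) := by
    refine h3.congr' ?_
    filter_upwards [hev'] with i hi
    exact L.e_inv hi
  have h5 : L.e x₀ u = L.e x₀ u₀ := tendsto_nhds_unique h4 (hb.mono_left hg)
  have h6 : u = u₀ := L.e_inj x₀ hu (ball_subset_closedBall hu₀) h5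
  rw [← h6]
  exact hlim'

include L in
/-- (T2) compactness modulo the group -/
theorem exists_limit (x : ℕ → X) : ∃ (g : ℕ → Γ) (w : X) (ψ : ℕ → ℕ), StrictMono ψ ∧
    Tendsto (fun n => g (ψ n) • x (ψ n)) atTop (𝓝 w) := by
  obtain ⟨K, hK, hcov⟩ := L.cocompact
  choose g hg using fun n => hcov (x n)
  obtain ⟨w, _, ψ, hψ, hlim⟩ := hK.tendsto_subseq hg
  exact ⟨g, w, ψ, hψ, hlim⟩

/-- (T3) nearby frames have nearby charts, uniformly -/
theorem near_charts {ε : ℝ} (hε : 0 < ε) : ∃ δ > 0, ∀ x y : X, dist x y < δ →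
    ∀ u ∈ closedBall (0 : E2) 2, L.e x u ∈ L.e y '' ball 0 3 ∧
      dist (L.inv y (L.e x u)) u < ε := by
  by_contra hcon
  push Not at hcon
  choose x y hxy u hu hbad using fun n : ℕ => hcon (1 / ((n : ℝ) + 1)) (by positivity)
  obtain ⟨g, w, ψ, hψ, hlim⟩ := L.exists_limit x
  obtain ⟨u₀, hu₀, ψ', hψ', hlimu⟩ := (isCompact_closedBall (0 : E2) 2).tendsto_subseq
    (fun n => hu (ψ n))
  have hx' : Tendsto (fun n => g (ψ (ψ' n)) • x (ψ (ψ' n))) atTop (𝓝 w) :=
    hlim.comp hψ'.tendsto_atTop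
  have hd : Tendsto (fun n => dist (x (ψ (ψ' n))) (y (ψ (ψ' n)))) atTop (𝓝 0) := by
    have h1 : Tendsto (fun n : ℕ => 1 / ((n : ℝ) + 1)) atTop (𝓝 0) :=
      tendsto_one_div_add_atTop_nhds_zero_nat
    refine squeeze_zero (fun n => dist_nonneg) (fun n => (hxy _).le)
      (h1.comp ((hψ.comp hψ').tendsto_atTop))
  have hy' : Tendsto (fun n => g (ψ (ψ' n)) • y (ψ (ψ' n))) atTop (𝓝 w) := by
    rw [tendsto_iff_dist_tendsto_zero] at hx' ⊢
    refine squeeze_zero (fun n => dist_nonneg)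
      (fun n => dist_triangle_left _ _ (g (ψ (ψ' n)) • x (ψ (ψ' n)))) ?_
    have := hd.add hx'
    rw [add_zero] at this
    refine this.congr fun n => ?_
    rw [dist_smul]
  have hu3 : ∀ n, u n ∈ closedBall (0 : E2) 3 := fun n => closedBall_subset_closedBall (by norm_num) (hu n)
  have hu₀3 : u₀ ∈ ball (0 : E2) 3 := closedBall_subset_ball (by norm_num) hu₀
  have hb : Tendsto (fun n => L.e (g (ψ (ψ' n)) • x (ψ (ψ' n))) (u (ψ (ψ' n)))) atTop
      (𝓝 (L.e w u₀)) := by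
    have h1 : Tendsto (fun n => (g (ψ (ψ' n)) • x (ψ (ψ' n)), u (ψ (ψ' n)))) atTop
        (𝓝[univ ×ˢ closedBall 0 3] (w, u₀)) :=
      tendsto_nhdsWithin_iff.mpr ⟨hx'.prodMk_nhds hlimu,
        Eventually.of_forall fun n => ⟨trivial, hu3 _⟩⟩
    exact (L.e_cont (w, u₀) ⟨trivial, ball_subset_closedBall hu₀3⟩).tendsto.comp h1
  obtain ⟨h1, h2⟩ := L.inv_tendsto hy' hb hu₀3
  have h3 : Tendsto (fun n => dist (L.inv (g (ψ (ψ' n)) • y (ψ (ψ' n)))
      (L.e (g (ψ (ψ' n)) • x (ψ (ψ' n))) (u (ψ (ψ' n))))) (u (ψ (ψ' n)))) atTop (𝓝 0) := by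
    have := h2.dist hlimu
    rwa [dist_self] at this
  have h4 := (tendsto_order.mp h3).2 ε hε
  obtain ⟨n, hn1, hn2⟩ := (h1.and h4).exists
  rw [L.e_smul _ _ _ (hu3 _)] at hn1 hn2
  have hn3 : L.e (x (ψ (ψ' n))) (u (ψ (ψ' n))) ∈ L.e (y (ψ (ψ' n))) '' ball 0 3 := by
    obtain ⟨v, hv, hev⟩ := hn1
    rw [L.e_smul _ _ _ (ball_subset_closedBall hv)] at hev
    exact ⟨v, hv, smul_left_cancel _ hev⟩
  rw [L.inv_smul _ (image_mono ball_subset_closedBall hn3)] at hn2
  exact absurd hn2 (not_lt.mpr (hbad _ hn3))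

include L in
/-- equivariant continuous maps are uniformly continuous -/
theorem unif_cont {f : X → X} (hf : Continuous f) (hs : ∀ (g : Γ) x, f (g • x) = g • f x)
    {ε : ℝ} (hε : 0 < ε) : ∃ δ > 0, ∀ x y : X, dist x y < δ → dist (f x) (f y) < ε := by
  by_contra hcon
  push Not at hcon
  choose x y hxy hbad using fun n : ℕ => hcon (1 / ((n : ℝ) + 1)) (by positivity)
  obtain ⟨g, w, ψ, hψ, hx'⟩ := L.exists_limit x
  have hd : Tendsto (fun n => dist (x (ψ n)) (y (ψ n))) atTop (𝓝 0) := by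
    have h1 : Tendsto (fun n : ℕ => 1 / ((n : ℝ) + 1)) atTop (𝓝 0) :=
      tendsto_one_div_add_atTop_nhds_zero_nat
    refine squeeze_zero (fun n => dist_nonneg) (fun n => (hxy _).le)
      (h1.comp (hψ.tendsto_atTop))
  have hy' : Tendsto (fun n => g (ψ n) • y (ψ n)) atTop (𝓝 w) := by
    rw [tendsto_iff_dist_tendsto_zero] at hx' ⊢
    refine squeeze_zero (fun n => dist_nonneg)
      (fun n => dist_triangle_left _ _ (g (ψ n) • x (ψ n))) ?_
    have := hd.add hx'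
    rw [add_zero] at this
    refine this.congr fun n => ?_
    rw [dist_smul]
  have h1 := ((hf.tendsto w).comp hx').dist ((hf.tendsto w).comp hy')
  rw [dist_self] at h1
  obtain ⟨n, hn⟩ := ((tendsto_order.mp h1).2 ε hε).exists
  simp only [Function.comp_apply, hs, dist_smul] at hn
  exact absurd hn (not_lt.mpr (hbad _))

end Leaf

end Vale.Agent.P207.N3
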