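import Vale.Agent.P207.H575.T3.Res
import Vale.Agent.P207.H575.T3.Core
import Vale.Agent.P207.N3.H828.CK2

/-!
Line N3 of P207, package P6: the theorem U_ALL (2.1).
-/

namespace Vale.Agent.P207.N3

open Set Filter Topology Metric MeasureTheory
open scoped ContDiff Nat

set_option linter.unusedSectionVars false

variable {Γ X B : Type} [Group Γ] [MetricSpace X] [ProperSpace X] [MulAction Γ X]
  [IsIsometricSMul Γ X] [TopologicalSpace B] [CompactSpace B] [T2Space B] [MulAction Γ B]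
  [ContinuousConstSMul Γ B]

namespace Leaf

variable (L : Leaf Γ X B)

/-- uniform C^k bounds of rescaled functions, from sup bounds on the earlier discs -/
theorem scaled_bound (V : Type) [NormedAddCommGroup V] [NormedSpace ℝ V] (χ : ℝ) :
    ∃ t ≥ L.t1, ∀ {ξ : B} {f : B → V}, L.SmoothOn ξ f → ∀ {K : Set X}, IsCompact K →
      (∀ x ∈ K, L.em x = ξ) → ∀ M : ℝ, ∃ C : ℕ → ℝ, ∀ (x : X) (r : ℝ) (j : ℕ) (c : ℝ),
      x ∈ K → L.t1 ≤ r → 0 ≤ c →
      (∀ s ≤ j, ∀ u ∈ ball (0 : E2) 3,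
        c * ‖f (L.e (L.φ (((j - s : ℕ) : ℝ) * t) (L.φ r x)) u) - f (L.ep x)‖ ≤
          M * Real.exp (χ * t * s)) →
      c ≤ M * Real.exp (χ * t * j) →
      ∀ k, H545.CkB k 3 (C k)
        (fun u => c • (f (L.e (L.φ (j * t) (L.φ r x)) u) - f (L.ep x))) := by
  obtain ⟨t, ht, hres⟩ := L.rescaled_bound V χ
  refine ⟨t, ht, fun {ξ f} hf {K} hK hKξ M => ?_⟩
  obtain ⟨C₀, hC₀0, hC₀⟩ := L.start_bound hf hK hKξ
  -- bound of f(ep x)
  obtain ⟨C₁, hC₁⟩ : ∃ C₁ : ℝ, ∀ x ∈ K, ‖f (L.ep x)‖ ≤ C₁ := by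
    obtain ⟨C₁, h⟩ := L.init_bound hf hK hKξ (r := 1) (by norm_num) 0
    refine ⟨C₁, fun x hx => ?_⟩
    have := h x hx 0 (by simp)
    rwa [norm_iteratedFDeriv_zero, L.e_zero] at this
  obtain ⟨C, hC0, hC⟩ := hres (fun k => C₀ k + |C₁|)
  refine ⟨fun k => C k * |M|, fun x r j c hx hr hc0 hsup hcM k => ?_⟩
  have hyξ : L.em (L.φ r x) = ξ := by rw [L.em_φ]; exact hKξ x hx
  have key := hC (fun b => c • (f b - f (L.ep x))) (L.φ r x) j |M| (abs_nonneg M) ?_ ?_ ?_ k
  · exact key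
  · rw [hyξ]
    intro y hy
    exact ((hf y hy).sub contDiffOn_const).const_smul c
  · intro s hs u hu
    rw [norm_smul, Real.norm_of_nonneg hc0]
    refine (hsup s hs u hu).trans ?_
    gcongr
    exact le_abs_self M
  · intro m
    have h1 := hC₀ m x hx r hr
    have hcM' : c ≤ |M| * Real.exp (χ * t * j) := hcM.trans (by gcongr; exact le_abs_self M)
    refine ⟨(h1.1.sub contDiffOn_const).const_smul c, fun i hi u hu => ?_⟩
    have hcd : ContDiffAt ℝ i (fun u => f (L.e (L.φ r x) u)) u :=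
      (h1.contDiffAt hu).of_le (by exact_mod_cast hi)
    have e1 : iteratedFDeriv ℝ i (fun u => c • (f (L.e (L.φ r x) u) - f (L.ep x))) u =
        c • (iteratedFDeriv ℝ i (fun u => f (L.e (L.φ r x) u)) u -
          iteratedFDeriv ℝ i (fun _ : E2 => f (L.ep x)) u) := by
      have h3 : ContDiffAt ℝ i (fun _ : E2 => f (L.ep x)) u := contDiffAt_const
      have h2 : ContDiffAt ℝ i (fun u => f (L.e (L.φ r x) u) - f (L.ep x)) u := hcd.sub h3
      have h4 := iteratedFDeriv_const_smul_apply (a := c) h2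
      have h5 := iteratedFDeriv_sub_apply hcd h3
      calc iteratedFDeriv ℝ i (fun u => c • (f (L.e (L.φ r x) u) - f (L.ep x))) u
          = c • iteratedFDeriv ℝ i (fun u => f (L.e (L.φ r x) u) - f (L.ep x)) u := h4
        _ = _ := by rw [← h5]; rfl
    rw [e1, norm_smul, Real.norm_of_nonneg hc0]
    have h6 : ‖iteratedFDeriv ℝ i (fun u => f (L.e (L.φ r x) u)) u‖ ≤ C₀ m := h1.2 i hi u hu
    have h7 : ‖iteratedFDeriv ℝ i (fun _ : E2 => f (L.ep x)) u‖ ≤ |C₁| := by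
      rcases Nat.eq_zero_or_pos i with h0 | h0
      · subst h0
        rw [norm_iteratedFDeriv_zero]
        exact (hC₁ x hx).trans (le_abs_self _)
      · rw [iteratedFDeriv_const_of_ne (by omega)]
        simp
    calc c * ‖iteratedFDeriv ℝ i (fun u => f (L.e (L.φ r x) u)) u -
          iteratedFDeriv ℝ i (fun _ : E2 => f (L.ep x)) u‖
        ≤ c * (C₀ m + |C₁|) := by
          gcongr
          exact (norm_sub_le _ _).trans (add_le_add h6 h7)
      _ ≤ (|M| * Real.exp (χ * t * j)) * (C₀ m + |C₁|) := by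
          gcongr
          have := hC₀0 m
          positivity
      _ = (C₀ m + |C₁|) * (|M| * Real.exp (χ * t * j)) := mul_comm _ _

variable {V : Type} [NormedAddCommGroup V] [NormedSpace ℝ V]

/-- one step into the past: the disc at time (m+1)t is inside the unit disc at time mt -/
theorem step_mem {t : ℝ} (ht : L.t1 ≤ t) (y : X) (m : ℕ) {u : E2} (hu : u ∈ ball (0 : E2) 3) :
    ∃ v ∈ closedBall (0 : E2) 1,
      L.e (L.φ (((m + 1 : ℕ) : ℝ) * t) y) u = L.e (L.φ ((m : ℝ) * t) y) v := by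
  have e2 : L.φ (((m + 1 : ℕ) : ℝ) * t) y = L.φ t (L.φ ((m : ℝ) * t) y) := by
    rw [← L.φ_add]
    congr 1
    push_cast
    ring
  rw [e2]
  refine ⟨L.τ (L.φ t (L.φ ((m : ℝ) * t) y)) (L.φ ((m : ℝ) * t) y) u,
    ball_subset_closedBall (L.tau_engulf _ ht hu), ?_⟩
  exact (L.e_tau (by rw [L.dm_engulf _ ht]; exact hu)).symm

/-- the bound at the multiples of a fixed step -/
theorem u_all_steps [FiniteDimensional ℝ V] {ξ η₀ : B} {f : B → V} {χ : ℝ}
    (hf : L.SmoothOn ξ f) (hH : L.HOM ξ η₀ f χ) : ∃ t ≥ L.t1, ∀ {K : Set X}, IsCompact K →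
    (∀ x ∈ K, L.em x = ξ) → ∃ N : ℕ, ∀ j : ℕ, ∀ x ∈ K, ∀ r ∈ Icc L.t1 (L.t1 + t),
      ∀ u ∈ closedBall (0 : E2) 1, ‖f (L.e (L.φ (j * t) (L.φ r x)) u) - f (L.ep x)‖ ≤
        N * Real.exp (-(χ * (j * t))) := by
  obtain ⟨t, ht, hsb⟩ := L.scaled_bound V χ
  have ht0 : 0 < t := lt_of_lt_of_le L.t1_pos ht
  refine ⟨t, ht, fun {K} hK hKξ => ?_⟩
  by_contra hcon
  push Not at hcon
  -- minimal bad step
  classical
  let P : ℕ → ℕ → Prop := fun N j => ∃ x ∈ K, ∃ r ∈ Icc L.t1 (L.t1 + t),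
    ∃ u ∈ closedBall (0 : E2) 1, N * Real.exp (-(χ * (j * t))) <
      ‖f (L.e (L.φ (j * t) (L.φ r x)) u) - f (L.ep x)‖
  have hP : ∀ N, ∃ j, P N j := hcon
  let J : ℕ → ℕ := fun n => Nat.find (hP (n + 1))
  have hJ : ∀ n, P (n + 1) (J n) := fun n => Nat.find_spec (hP (n + 1))
  have hJm : ∀ n m, m < J n → ¬ P (n + 1) m := fun n m h => Nat.find_min (hP (n + 1)) h
  choose x hx r hr u hu hbad using hJ
  -- bounds at the start
  obtain ⟨C₀, hC₀0, hC₀⟩ := L.start_bound hf hK hKξ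
  obtain ⟨C₁, hC₁⟩ : ∃ C₁ : ℝ, ∀ x ∈ K, ‖f (L.ep x)‖ ≤ C₁ := by
    obtain ⟨C₁, h⟩ := L.init_bound hf hK hKξ (r := 1) (by norm_num) 0
    refine ⟨C₁, fun x hx => ?_⟩
    have := h x hx 0 (by simp)
    rwa [norm_iteratedFDeriv_zero, L.e_zero] at this
  let M : ℝ := max (Real.exp (χ * t)) (max (C₀ 0 + C₁) 1)
  have hM1 : Real.exp (χ * t) ≤ M := le_max_left _ _
  have hM2 : C₀ 0 + C₁ ≤ M := (le_max_left _ _).trans (le_max_right _ _)
  have hM3 : 1 ≤ M := (le_max_right _ _).trans (le_max_right _ _)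
  obtain ⟨C, hC⟩ := hsb hf hK hKξ M
  let c : ℕ → ℝ := fun n => Real.exp (χ * (J n * t)) / (n + 1)
  have hc0 : ∀ n, 0 < c n := fun n => by positivity
  have hcle : ∀ n, c n ≤ Real.exp (χ * (J n * t)) := fun n => by
    apply div_le_self (Real.exp_pos _).le
    have : (0 : ℝ) ≤ n := Nat.cast_nonneg n
    linarith
  have hCk : ∀ n k, H545.CkB k 3 (C k)
      (fun u => c n • (f (L.e (L.φ (J n * t) (L.φ (r n) (x n))) u) - f (L.ep (x n)))) := by
    intro n
    refine hC (x n) (r n) (J n) (c n) (hx n) (hr n).1 (hc0 n).le ?_ ?_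
    · intro s hs v hv
      rcases Nat.lt_or_ge s (J n) with hlt | hge
      · obtain ⟨m, hm⟩ : ∃ m, J n - s = m + 1 := ⟨J n - s - 1, by omega⟩
        rw [hm]
        obtain ⟨v', hv', hvv⟩ := L.step_mem ht (L.φ (r n) (x n)) m hv
        rw [hvv]
        have h1 : ‖f (L.e (L.φ ((m : ℝ) * t) (L.φ (r n) (x n))) v') - f (L.ep (x n))‖ ≤
            ((n + 1 : ℕ) : ℝ) * Real.exp (-(χ * (m * t))) := by
          by_contra h
          push Not at h
          exact hJm n m (by omega) ⟨x n, hx n, r n, hr n, v', hv', h⟩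
        have e1 : (J n : ℝ) = s + (m + 1) := by
          have : J n = s + (m + 1) := by omega
          rw [this]; push_cast; ring
        calc c n * ‖f (L.e (L.φ ((m : ℝ) * t) (L.φ (r n) (x n))) v') - f (L.ep (x n))‖
            ≤ c n * (((n + 1 : ℕ) : ℝ) * Real.exp (-(χ * (m * t)))) := by
              have := (hc0 n).le
              gcongr
          _ = Real.exp (χ * (J n * t)) * Real.exp (-(χ * (m * t))) := by
              simp only [c]
              push_cast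
              have : ((n : ℝ) + 1) ≠ 0 := by positivity
              field_simp
          _ = Real.exp (χ * t) * Real.exp (χ * t * s) := by
              rw [← Real.exp_add, ← Real.exp_add, e1]
              congr 1
              ring
          _ ≤ M * Real.exp (χ * t * s) := by gcongr
      · have hs' : s = J n := le_antisymm hs hge
        rw [hs', Nat.sub_self, Nat.cast_zero, zero_mul, L.φ_zero]
        have h1 : ‖f (L.e (L.φ (r n) (x n)) v)‖ ≤ C₀ 0 :=
          (hC₀ 0 (x n) (hx n) (r n) (hr n).1).norm_le hv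
        have h2 := hC₁ (x n) (hx n)
        calc c n * ‖f (L.e (L.φ (r n) (x n)) v) - f (L.ep (x n))‖
            ≤ Real.exp (χ * (J n * t)) * (C₀ 0 + C₁) := by
              apply mul_le_mul (hcle n) ((norm_sub_le _ _).trans (add_le_add h1 h2))
                (norm_nonneg _) (Real.exp_pos _).le
          _ ≤ Real.exp (χ * (J n * t)) * M := by gcongr
          _ = M * Real.exp (χ * t * (J n : ℕ)) := by
              rw [mul_comm]
              congr 2
              ring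
    · calc c n ≤ Real.exp (χ * (J n * t)) := hcle n
        _ = 1 * Real.exp (χ * t * J n) := by
            rw [one_mul]
            congr 1
            ring
        _ ≤ M * Real.exp (χ * t * J n) := by gcongr
  -- limits
  obtain ⟨g, w, ψ, hψ, hgw⟩ := L.exists_limit (fun n => L.φ (J n * t) (L.φ (r n) (x n)))
  obtain ⟨ψ', hψ', G, hG, hGlim⟩ := H828.ck_subseq_top (S := ball (0 : E2) 3) isOpen_ball
    (convex_ball 0 3) isBounded_ball (M := C)
    (F := fun n => fun u => c (ψ n) • (f (L.e (L.φ (J (ψ n) * t) (L.φ (r (ψ n)) (x (ψ n)))) u) -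
      f (L.ep (x (ψ n)))))
    (fun k n => ⟨(hCk (ψ n) k).1, fun j hj v hv => (hCk (ψ n) j).2 j le_rfl v hv⟩)
  have hlim1 := H828.tendstoUniformlyOn_fderiv (hGlim 1)
  have hlim0 := H828.tendstoUniformlyOn_of_zero (hGlim 0)
  have hG1 : ContDiffOn ℝ 1 G (ball 0 3) := by exact_mod_cast (hG 1).1
  -- bound of the levels
  obtain ⟨b, hb⟩ : ∃ b : ℝ, ∀ x ∈ K, |L.lv x| ≤ b := by
    obtain ⟨b, hb⟩ := (hK.image_of_continuousOn
      (continuous_abs.comp L.lv_cont).continuousOn).bddAbove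
    exact ⟨b, fun x hx => hb ⟨x, hx, rfl⟩⟩
  have hcc : Tendsto (fun n => c n * Real.exp (-(χ * L.lv (L.φ (J n * t) (L.φ (r n) (x n))))))
      atTop (𝓝 0) := by
    have hbound : ∀ n, c n * Real.exp (-(χ * L.lv (L.φ (J n * t) (L.φ (r n) (x n))))) ≤
        Real.exp (|χ| * (b + (L.t1 + t))) * (1 / ((n : ℝ) + 1)) := by
      intro n
      have e1 : c n * Real.exp (-(χ * L.lv (L.φ (J n * t) (L.φ (r n) (x n))))) =
          Real.exp (-(χ * (L.lv (x n) + r n))) * (1 / ((n : ℝ) + 1)) := by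
        rw [L.lv_φ, L.lv_φ]
        simp only [c]
        rw [div_mul_eq_mul_div, ← Real.exp_add, mul_one_div]
        congr 2
        ring
      rw [e1]
      gcongr
      have h1 : |L.lv (x n) + r n| ≤ b + (L.t1 + t) := by
        refine (abs_add_le _ _).trans (add_le_add (hb _ (hx n)) ?_)
        rw [abs_of_nonneg (L.t1_pos.le.trans (hr n).1)]
        exact (hr n).2
      calc -(χ * (L.lv (x n) + r n)) ≤ |χ * (L.lv (x n) + r n)| := neg_le_abs _
        _ = |χ| * |L.lv (x n) + r n| := abs_mul _ _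
        _ ≤ |χ| * (b + (L.t1 + t)) := by gcongr
    refine squeeze_zero (fun n => by have := hc0 n; positivity) hbound ?_
    have := (tendsto_one_div_add_atTop_nhds_zero_nat (𝕜 := ℝ)).const_mul
      (Real.exp (|χ| * (b + (L.t1 + t))))
    rwa [mul_zero] at this
  have hfd := L.core hf hH (p := fun n => L.φ (J (ψ (ψ' n)) * t)
      (L.φ (r (ψ (ψ' n))) (x (ψ (ψ' n))))) (fun n => by
        rw [L.em_φ, L.em_φ]; exact hKξ _ (hx _))
    (g := fun n => g (ψ (ψ' n))) (w := w) (hgw.comp hψ'.tendsto_atTop)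
    (c := fun n => c (ψ (ψ' n))) (fun n => (hc0 _).le)
    (hcc.comp (hψ.comp hψ').tendsto_atTop) (a := fun n => f (L.ep (x (ψ (ψ' n))))) hG1 hlim1
  -- the limit is constant
  have hconst : ∀ v ∈ ball (0 : E2) 3, G v = G 0 := by
    intro v hv
    exact isOpen_ball.is_const_of_fderiv_eq_zero (convex_ball (0 : E2) 3).isPreconnected
      (hG1.differentiableOn (by simp)) (fun v hv => hfd v hv) hv (by simp)
  have hG0 : G 0 = 0 := by
    have h1 : Tendsto (fun n => c (ψ (ψ' n)) • (f (L.e (L.φ (J (ψ (ψ' n)) * t)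
        (L.φ (r (ψ (ψ' n))) (x (ψ (ψ' n))))) 0) - f (L.ep (x (ψ (ψ' n)))))) atTop (𝓝 (G 0)) :=
      hlim0.tendsto_at (by simp)
    have h2 : ∀ n, c (ψ (ψ' n)) • (f (L.e (L.φ (J (ψ (ψ' n)) * t)
        (L.φ (r (ψ (ψ' n))) (x (ψ (ψ' n))))) 0) - f (L.ep (x (ψ (ψ' n))))) = 0 := by
      intro n
      rw [L.e_zero, L.ep_φ, L.ep_φ, sub_self, smul_zero]
    exact (tendsto_nhds_unique (tendsto_const_nhds.congr fun n => (h2 n).symm) h1).symm
  rw [Metric.tendstoUniformlyOn_iff] at hlim0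
  obtain ⟨n, hn⟩ := (hlim0 1 one_pos).exists
  have hu3 : u (ψ (ψ' n)) ∈ ball (0 : E2) 3 :=
    closedBall_subset_ball (by norm_num) (hu _)
  have h1 := hn _ hu3
  rw [hconst _ hu3, hG0, dist_zero_left, norm_smul, Real.norm_of_nonneg (hc0 _).le] at h1
  have h2 := hbad (ψ (ψ' n))
  have h3 : c (ψ (ψ' n)) * ((((ψ (ψ' n)) + 1 : ℕ) : ℝ) *
      Real.exp (-(χ * (J (ψ (ψ' n)) * t)))) = 1 := by
    simp only [c]
    have h4 : ((ψ (ψ' n) : ℝ) + 1) ≠ 0 := by positivity
    push_cast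
    rw [div_mul_eq_mul_div, mul_comm ((ψ (ψ' n) : ℝ) + 1), ← mul_assoc, ← Real.exp_add]
    rw [add_neg_cancel, Real.exp_zero, one_mul, div_self h4]
  have h5 := mul_lt_mul_of_pos_left h2 (hc0 (ψ (ψ' n)))
  rw [h3] at h5
  linarith

/-- THEOREM U_ALL (2.1) -/
theorem u_all [FiniteDimensional ℝ V] {ξ η₀ : B} {f : B → V} {χ : ℝ}
    (hf : L.SmoothOn ξ f) (hH : L.HOM ξ η₀ f χ) : L.UALL ξ f χ := by
  obtain ⟨t, ht, hst⟩ := L.u_all_steps hf hH
  have ht0 : 0 < t := lt_of_lt_of_le L.t1_pos ht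
  intro K hK hKξ
  obtain ⟨N, hN⟩ := hst hK hKξ
  -- small times
  let K₀ : Set X := (fun p : ℝ × X => L.φ p.1 p.2) '' (Icc 0 L.t1 ×ˢ K)
  have hK₀ : IsCompact K₀ := (isCompact_Icc.prod hK).image L.φ_cont
  have hK₀ξ : ∀ x ∈ K₀, L.em x = ξ := by
    rintro _ ⟨⟨s, x⟩, ⟨_, hx⟩, rfl⟩
    simp only
    rw [L.em_φ]
    exact hKξ x hx
  obtain ⟨C₂, hC₂⟩ := L.init_bound hf hK₀ hK₀ξ (r := 1) (by norm_num) 0
  have hC₂' : ∀ x ∈ K₀, ∀ u ∈ closedBall (0 : E2) 1, ‖f (L.e x u)‖ ≤ C₂ := by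
    intro x hx u hu
    have := hC₂ x hx u hu
    rwa [norm_iteratedFDeriv_zero] at this
  refine ⟨max (N * Real.exp (|χ| * (L.t1 + t))) (2 * |C₂| * Real.exp (|χ| * L.t1)),
    fun x hx T hT u hu => ?_⟩
  rcases le_or_gt L.t1 T with h | h
  · -- large times
    set j : ℕ := ⌊(T - L.t1) / t⌋₊ with hj
    have hj1 : (j : ℝ) * t ≤ T - L.t1 := by
      have := Nat.floor_le (show 0 ≤ (T - L.t1) / t by
        apply div_nonneg (by linarith) ht0.le)
      rwa [le_div_iff₀ ht0] at this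
    have hj2 : T - L.t1 < (j + 1) * t := by
      have := Nat.lt_floor_add_one ((T - L.t1) / t)
      rwa [div_lt_iff₀ ht0] at this
    have hr : T - j * t ∈ Icc L.t1 (L.t1 + t) := ⟨by linarith, by linarith⟩
    have h1 := hN j x hx (T - j * t) hr u hu
    have e1 : L.φ (j * t) (L.φ (T - j * t) x) = L.φ T x := by
      rw [← L.φ_add]
      congr 1
      ring
    rw [e1] at h1
    refine h1.trans ?_
    have e2 : Real.exp (-(χ * (j * t))) ≤ Real.exp (|χ| * (L.t1 + t)) * Real.exp (-(χ * T)) := by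
      rw [← Real.exp_add]
      apply Real.exp_le_exp.mpr
      have h3 : χ * (T - j * t) ≤ |χ| * (L.t1 + t) := by
        calc χ * (T - j * t) ≤ |χ * (T - j * t)| := le_abs_self _
          _ = |χ| * |T - j * t| := abs_mul _ _
          _ ≤ |χ| * (L.t1 + t) := by
            gcongr
            rw [abs_of_nonneg (L.t1_pos.le.trans hr.1)]
            exact hr.2
      linarith
    calc (N : ℝ) * Real.exp (-(χ * (j * t)))
        ≤ N * (Real.exp (|χ| * (L.t1 + t)) * Real.exp (-(χ * T))) := by gcongr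
      _ = (N * Real.exp (|χ| * (L.t1 + t))) * Real.exp (-(χ * T)) := by ring
      _ ≤ _ := by
        gcongr
        exact le_max_left _ _
  · -- small times
    have h1 : ‖f (L.e (L.φ T x) u)‖ ≤ |C₂| :=
      (hC₂' _ ⟨(T, x), ⟨⟨hT, h.le⟩, hx⟩, rfl⟩ u hu).trans (le_abs_self _)
    have h2 : ‖f (L.ep x)‖ ≤ |C₂| := by
      have := hC₂' (L.φ 0 x) ⟨(0, x), ⟨⟨le_rfl, L.t1_pos.le⟩, hx⟩, rfl⟩ 0 (by simp)
      rw [L.φ_zero, L.e_zero] at this
      exact this.trans (le_abs_self _)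
    have h3 : 1 ≤ Real.exp (|χ| * L.t1) * Real.exp (-(χ * T)) := by
      rw [← Real.exp_add]
      apply Real.one_le_exp
      have h4 : χ * T ≤ |χ| * L.t1 := by
        calc χ * T ≤ |χ| * T := by gcongr; exact le_abs_self _
          _ ≤ |χ| * L.t1 := by gcongr
      linarith
    calc ‖f (L.e (L.φ T x) u) - f (L.ep x)‖ ≤ 2 * |C₂| := by
          refine (norm_sub_le _ _).trans ?_
          linarith
      _ = 2 * |C₂| * 1 := (mul_one _).symm
      _ ≤ 2 * |C₂| * (Real.exp (|χ| * L.t1) * Real.exp (-(χ * T))) := by gcongr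
      _ = (2 * |C₂| * Real.exp (|χ| * L.t1)) * Real.exp (-(χ * T)) := by ring
      _ ≤ _ := by
        gcongr
        exact le_max_right _ _

end Leaf

end Vale.Agent.P207.N3
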